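import Vale.Agent.P237.Lap

/-! Harmonics are eigenfunctions of the cosine transform.

Plan. Fix a; for unit u write s = ⟪a,u⟫, t = ⟪u,v⟫, F m u = ∫ |t| ⟪a,v⟫^m, J m u = ∫ |t| t ⟪a,v⟫^m.
ibp_adm with ψ = |⟪u,x⟫| (adm_abs_inner, grad_abs_inner, ae_inner_ne):
(1) g = ⟪a,x⟫^(m+1), ξ = a - s u (orthogonal to u):
    (m+1)(‖a‖^2 - s^2) F m = (n+m+1) (F (m+2) - s J (m+1));
(2) g = ⟪u,x⟫ ⟪a,x⟫^m, ξ = a: 2 s F m + m ‖a‖^2 J (m-1) = (n+m+1) J (m+1).
F 0 = m1 n (mom1), F 1 = 0, J 0 = 0 (integral_odd). Two step induction: there are real polynomials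
(or elements of Poly n m, resp. Poly n (m+1), multiplication by s and s^2 is easiest with
Polynomial ℝ and degree bounds, or with the span of the powers of ⟪a,x⟫) with
F m u = m1 cc m s^m + lower, J (m+1) u = 2 m1 cc m / (n+m+1) s^(m+1) + lower.
cos_step by Poly.step; cos_harm by eig with b p q = ∫ u, p u * Cf q u (symmetric by Fubini).
cos_grad: differentiate σ ↦ Cf q (u + σ ξ) at 0 under the integral
(hasDerivAt_integral_of_dominated_loc_of_lip); Cf q y = m1 cc k * ext q y for all y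
(homogeneity of Cf q), and ext_diff. -/

namespace Vale.Agent.P237

open MeasureTheory Set Metric Filter Topology
open scoped RealInnerProductSpace Pointwise NNReal ENNReal

variable {n : ℕ} [Fact (4 ≤ n)]

theorem cos_pow (a : E n) (m : ℕ) : ∃ r ∈ Poly n m, ∀ u, ‖u‖ = 1 →
    Cf (fun x => ⟪a, x⟫ ^ m) u = m1 n * cc n m * ⟪a, u⟫ ^ m + r u := by
  sorry

theorem cos_step (k : ℕ) : ∀ q ∈ Poly n (k + 1), ∃ r ∈ Poly n k, ∀ u, ‖u‖ = 1 →
    Cf q u = m1 n * cc n k * q u + r u := by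
  sorry

theorem ip_Cf_comm {f g : E n → ℝ} (hf : Continuous f) (hg : Continuous g) :
    ip (Cf f) g = ip (Cf g) f := by
  sorry

theorem continuous_Cf {f : E n → ℝ} (hf : Continuous f) : Continuous (Cf f) := by
  sorry

theorem cos_harm {q : E n → ℝ} {k : ℕ} (hq : IsHarm k q) {u : E n} (hu : ‖u‖ = 1) :
    Cf q u = m1 n * cc n k * q u := by
  sorry

theorem cos_grad {q : E n → ℝ} {k : ℕ} (hq : IsHarm k q) {u ξ : E n} (hu : ‖u‖ = 1)
    (hξ : ⟪ξ, u⟫ = 0) :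
    ∫ v, Real.sign ⟪u, v⟫ * q v * ⟪v, ξ⟫ ∂sph n = m1 n * cc n k * ⟪ξ, D q u⟫ := by
  sorry

end Vale.Agent.P237
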