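import Vale.Agent.P237.Mom

/-! Numerical bounds for `m1`.

Plan. kappa (m+2) = 2 π / (m+2) * kappa m from kappa_eq and Real.Gamma_add_one, so
m1 (k+2) = m1 k * k / (k+1) for k ≥ 1, m1 4 = 4 / (3 π), m1 5 = 3 / 8 (kappa 0 = 1, kappa 1 = 2).
(k - 1/2) m1 k ^ 2 increases and (k - 2/5) m1 k ^ 2 decreases along k ↦ k + 2; two step induction
with Real.pi_gt_d4, Real.pi_lt_d4. -/

namespace Vale.Agent.P237

open MeasureTheory Set Metric Filter Topology
open scoped RealInnerProductSpace Pointwise NNReal ENNReal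

variable {n : ℕ} [Fact (4 ≤ n)]

theorem m1_pos : 0 < m1 n := by
  sorry

theorem m1_sq_ge : 63 / 100 ≤ ((n : ℝ) - 1 / 2) * m1 n ^ 2 := by
  sorry

theorem m1_sq_le : ((n : ℝ) - 2 / 5) * m1 n ^ 2 ≤ 6485 / 10000 := by
  sorry

end Vale.Agent.P237
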