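import Vale.Agent.P237.Grad

/-! Norms and dual norms.

Plan. exists_bounds: upper bound by expanding in the standard basis; this gives continuity; the
lower bound is the minimum on the compact unit sphere. ge_of_max: for t = ⟪e,v⟫, w = v - t e and
s > 0 small, (1 + s t) e = (e - s w) + s v, so (1 + s t) L ≤ L * sqrt (1 + s^2 ‖w‖^2) + s φ v
≤ L (1 + s^2 ‖w‖^2) + s φ v; divide by s, let s tend to 0; apply also to -v.
dual: {y | φ y ≤ 1} is compact, symmetric, contains a ball, the supremum is attained.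
grad_dual: let y maximise ⟪v, .⟫; x ↦ dual φ x - ⟪x, y⟫ is nonnegative and vanishes at v, so its
gradient vanishes (IsLocalMin.fderiv_eq_zero): gradient (dual φ) v = y.
isGreatest_wulff: exists_extension_of_le_sublinear on the line through y, then
InnerProductSpace.toDual. vol_eq: the two radial bounds of Sph with ρ = 1 / φ. -/

namespace Vale.Agent.P237

open MeasureTheory Set Metric Filter Topology
open scoped RealInnerProductSpace Pointwise NNReal ENNReal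

variable {n : ℕ} [Fact (4 ≤ n)]

variable {φ : E n → ℝ}

omit [Fact (4 ≤ n)] in
theorem IsNrm.zero (h : IsNrm φ) : φ 0 = 0 := by
  sorry

omit [Fact (4 ≤ n)] in
theorem IsNrm.neg (h : IsNrm φ) (x : E n) : φ (-x) = φ x := by
  sorry

omit [Fact (4 ≤ n)] in
theorem IsNrm.nonneg (h : IsNrm φ) (x : E n) : 0 ≤ φ x := by
  sorry

omit [Fact (4 ≤ n)] in
theorem IsNrm.pos_unit (h : IsNrm φ) {u : E n} (hu : ‖u‖ = 1) : 0 < φ u := by
  sorry

omit [Fact (4 ≤ n)] in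
theorem IsNrm.convexOn (h : IsNrm φ) : ConvexOn ℝ univ φ := by
  sorry

omit [Fact (4 ≤ n)] in
theorem IsNrm.lip_of_le (h : IsNrm φ) {L : ℝ} (hL : ∀ u, ‖u‖ = 1 → φ u ≤ L) (x y : E n) :
    |φ x - φ y| ≤ L * ‖x - y‖ := by
  sorry

theorem IsNrm.exists_bounds (h : IsNrm φ) :
    ∃ c C : ℝ, 0 < c ∧ 0 < C ∧ ∀ x, c * ‖x‖ ≤ φ x ∧ φ x ≤ C * ‖x‖ := by
  sorry

theorem IsNrm.adm (h : IsNrm φ) : Adm φ := by
  sorry

theorem IsNrm.continuous (h : IsNrm φ) : Continuous φ := h.adm.continuous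

theorem IsNrm.mean_pos (h : IsNrm φ) : 0 < mean φ := by
  sorry

theorem IsNrm.exists_max (h : IsNrm φ) : ∃ e, ‖e‖ = 1 ∧ ∀ u, ‖u‖ = 1 → φ u ≤ φ e := by
  sorry

theorem IsNrm.ge_of_max (h : IsNrm φ) {e : E n} (he : ‖e‖ = 1)
    (hmax : ∀ u, ‖u‖ = 1 → φ u ≤ φ e) (v : E n) : φ e * |⟪e, v⟫| ≤ φ v := by
  sorry

omit [Fact (4 ≤ n)] in
theorem IsNrm.comp (h : IsNrm φ) (T : E n ≃ₗ[ℝ] E n) : IsNrm fun x => φ (T x) := by
  sorry

omit [Fact (4 ≤ n)] in
theorem IsNrm.const_mul (h : IsNrm φ) {c : ℝ} (hc : 0 < c) : IsNrm fun x => c * φ x := by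
  sorry

theorem IsNrm.inner_le_dual (h : IsNrm φ) (x y : E n) : ⟪x, y⟫ ≤ dual φ x * φ y := by
  sorry

theorem IsNrm.dual_le (h : IsNrm φ) {x : E n} {c : ℝ} (hc : ∀ y, φ y ≤ 1 → ⟪x, y⟫ ≤ c) :
    dual φ x ≤ c := by
  sorry

theorem IsNrm.dual_nrm (h : IsNrm φ) : IsNrm (dual φ) := by
  sorry

theorem IsNrm.wulff_eq (h : IsNrm φ) : wulff φ = {x | dual φ x ≤ 1} := by
  sorry

theorem IsNrm.grad_dual (h : IsNrm φ) {v : E n} (hd : DifferentiableAt ℝ (dual φ) v) :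
    φ (gradient (dual φ) v) ≤ 1 := by
  sorry

theorem IsNrm.isGreatest_wulff (h : IsNrm φ) (y : E n) :
    IsGreatest ((fun x => ⟪x, y⟫) '' wulff φ) (φ y) := by
  sorry

theorem IsNrm.body (h : IsNrm φ) : IsConvexBody {x | φ x ≤ 1} := by
  sorry

theorem IsNrm.exists_isM (h : IsNrm φ) : ∃ m, IsM φ m := by
  sorry

theorem IsNrm.vol_eq (h : IsNrm φ) {m : ℝ} (hm : IsM φ m) :
    (volume {x | φ x ≤ 1}).toReal = kappa n / m ^ n := by
  sorry

end Vale.Agent.P237
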