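import Vale.Agent.P237.Lap

/-! Spectral inequalities.

Plan. bessel: q = ∑ i ∈ s, ip G (e i) • e i is a polynomial (Poly.mono); replace it by ext q
(Poly.ext_adm) for integrability; expand 0 ≤ ∫ ‖D G - D q‖^2 = dir G G - 2 dir G q + dir q q; dir is
linear in the second slot on polynomials (D_add, D_smul), dir_harm, dir_harm_poly, orthonormality.
poincare4: lam n k ≥ 4 (n+2) for k ≥ 4 and lam n k ≥ 0 always;
bound the finite partial sums (Real.tsum_le_of_sum_le or tsum_le_of_sum_le').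
V_split: for deg i ≥ 4, ip f (e i) = ip H (e i) + ip G (e i); β (x+y)^2 ≤ P x^2 + Q y^2; the sum of
all ip H (e i)^2 is ip H H. poincare_eq: by parseval and hasSum_zero the variance is the sum of the
squares over deg i ≥ 1; lam n k ≥ n - 1 for k ≥ 1 and lam n k > n - 1 for k ≥ 2, so bessel forces
ip h (e i) = 0 for deg i ≥ 2. q = the finite sum over deg i ≤ 1 (b.fin) lies in Poly n 2, h - q has
zero coefficients, so ip (h - q) (h - q) = 0; eq_zero_of_ip, Poly.two. -/

namespace Vale.Agent.P237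

open MeasureTheory Set Metric Filter Topology
open scoped RealInnerProductSpace Pointwise NNReal ENNReal

variable {n : ℕ} [Fact (4 ≤ n)]

theorem summable_sq (b : HB n) {f : E n → ℝ} (hf : MemLp f 2 (sph n)) :
    Summable fun i => if 4 ≤ b.deg i then ip f (b.e i) ^ 2 else 0 := by
  sorry

omit [Fact (4 ≤ n)] in
theorem V_nonneg (b : HB n) (f : E n → ℝ) : 0 ≤ V b f := by
  sorry

omit [Fact (4 ≤ n)] in
theorem V_const_mul (b : HB n) (c : ℝ) (f : E n → ℝ) :
    V b (fun x => c * f x) = c ^ 2 * V b f := by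
  sorry

theorem bessel (b : HB n) {G : E n → ℝ} (hG : Adm G) (s : Finset b.ι) :
    ∑ i ∈ s, lam n (b.deg i) * ip G (b.e i) ^ 2 ≤ dir G G := by
  sorry

theorem poincare4 (b : HB n) {G : E n → ℝ} (hG : Adm G) : 4 * (n + 2) * V b G ≤ dir G G := by
  sorry

theorem V_split (b : HB n) {f H G : E n → ℝ} (hH : Continuous H) (hG : Continuous G) {c β P Q : ℝ}
    (h : ∀ u, ‖u‖ = 1 → f u = c + H u + G u) (hβ : 0 < β) (hP : 0 < P) (hQ : 0 < Q)
    (hPQ : 1 / P + 1 / Q ≤ 1 / β) : β * V b f ≤ P * ip H H + Q * V b G := by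
  sorry

theorem poincare_eq (b : HB n) {h : E n → ℝ} (hh : Adm h)
    (H : dir h h ≤ (n - 1) * (ip h h - mean h ^ 2)) :
    ∃ (c : ℝ) (a : E n), ∀ u, ‖u‖ = 1 → h u = c + ⟪a, u⟫ := by
  sorry

end Vale.Agent.P237
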