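import Vale.Agent.P237.Bil
import Vale.Agent.P237.Cos
import Vale.Agent.P237.Spec
import Vale.Agent.P237.M1
import Vale.Agent.P237.Nrm

/-! Diagonalisation of Bf and the lower bound.

Plan. mult_le: odd k: cc n k = 0. k = 4: cc n 4 = -1/((n+1)(n+3)), equality. Step k → k+2 for
k ≥ 4: (k-1)(1 + (n+1)(k+2)(k+n)) ≤ (n+k+1)(1 + (n+1) k (k+n-2)) (substitute n = 4 + a, k = 4 + b;
all coefficients of the difference are positive). hasSum_Af: with
T v = ∫ u, sign ⟪u,v⟫ * ⟪v, D ψ u⟫ (bounded, measurable by StronglyMeasurable.integral_prod_left)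
Fubini gives Af f ψ = ip f T for continuous f; parseval f T; ip T (e i) = Af (e i) ψ
= m1 cc ∫ ⟪D ψ u, D (e i) u⟫ (cos_grad, inner_D_self) = m1 cc lam ip ψ (e i) (dir_harm).
hasSum_Cf: parseval (Cf φ) ψ, ip (Cf φ) (e i) = ip (Cf (e i)) φ (ip_Cf_comm), cos_harm.
Bf_ge: split the sum by degree: 0 (hasSum_zero, cc 0 = 1, lam 0 = 0), 1, 3 (cc n 1 = cc n 3 = 0), 2 (ip_two),
≥ 4: termwise ≥ - β |x_i| |y_i|; for every τ > 0, |x y| ≤ (τ x^2 + y^2 / τ)/2, or use
Cauchy-Schwarz on finite sums (Real.sum_mul_le_sqrt_mul_sqrt) and pass to the limit. -/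

namespace Vale.Agent.P237

open MeasureTheory Set Metric Filter Topology
open scoped RealInnerProductSpace Pointwise NNReal ENNReal

variable {n : ℕ} [Fact (4 ≤ n)]

theorem mult_le {k : ℕ} (hk : 4 ≤ k) : |cc n k * (1 + (n + 1) * lam n k)| ≤ beta n := by
  sorry

theorem hasSum_Af (b : HB n) {f ψ : E n → ℝ} (hf : Continuous f) (hψ : Adm ψ) :
    HasSum (fun i => m1 n * cc n (b.deg i) * lam n (b.deg i) * (ip f (b.e i) * ip ψ (b.e i)))
      (Af f ψ) := by
  sorry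

theorem hasSum_Cf (b : HB n) {f g : E n → ℝ} (hf : Continuous f) (hg : Continuous g) :
    HasSum (fun i => m1 n * cc n (b.deg i) * (ip f (b.e i) * ip g (b.e i))) (ip (Cf f) g) := by
  sorry

theorem Bf_ge (b : HB n) {φ ψ : E n → ℝ} (hφ : IsNrm φ) (hψ : IsNrm ψ) (hI : Iso φ) :
    m1 n * (mean φ * mean ψ - beta n * (√(V b φ) * √(V b ψ))) ≤ Bf φ ψ := by
  sorry

end Vale.Agent.P237
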