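import Vale.Agent.P237.Xp
import Vale.Agent.P237.Bsum

/-! The analytic inequality.

Plan. sup_le: exists_max, ge_of_max, Iso at the maximiser e, mom3.
Let A = (n+1)^2 (n - 1/2) / (2.52 n^2); sup_le and m1_sq_ge give φ u ^ 2 ≤ A * mean φ ^ 2.
num_a, num_b, num_c: clear denominators, substitute n = 4 + k; all coefficients are positive.
xp_iso: if φ u ^ 2 ≤ L2 n * m ^ 2 for all unit u use xp; otherwise L2 n * m^2 < A * mean^2 and
V_le_lip with Λ = A * mean^2, num_a.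
zon_ge: unit w first (zon is homogeneous). With d = ⟪∇φ v, w⟫, t = ⟪w,v⟫, |d| ≤ Λ = (n+2)/4 * mean φ
(num_b, lip_of_le, norm_grad_le): |d| ≥ (3/2) d t - Λ (2187/4096) t^4, because
s - 1 ≤ (27/256) s^4 for s = (3/2)|t|. Integrate: grad_moment, Iso, mom4;
3/2 - 6561/16384 ≥ 109/100.
an: assume 1 ≤ m1 m m'. ψ = dual (zon φ) satisfies ψ u ≤ n / (1.09 mean φ) ≤ n m1 m' / 1.09 on the
sphere (dual_le, zon_ge, mean_ge), so ψ u ^ 2 ≤ L2 n * m'^2 (m1_sq_le, num_c) and xp applies to ψ.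
Bf φ ψ ≤ ∫ zon φ (∇ψ u) ≤ 1 (grad_dual, Adm.ae_diff; integral_mono_ae, or norm_integral_le).
With a = mean φ, a' = mean ψ, x = sqrt (β V φ), x' = sqrt (β V ψ): a^2 - x^2 ≥ m^2,
a'^2 - x'^2 ≥ m'^2 + (a' - m')^2, (a a' - x x')^2 ≥ (a^2 - x^2)(a'^2 - x'^2), a a' - x x' > 0.
So 1 ≥ (m1 m)^2 (m'^2 + (a' - m')^2), which forces m1 m m' = 1 and a' = m'; mean_ge. -/

namespace Vale.Agent.P237

open MeasureTheory Set Metric Filter Topology
open scoped RealInnerProductSpace Pointwise NNReal ENNReal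

variable {n : ℕ} [Fact (4 ≤ n)]

theorem sup_le {φ : E n → ℝ} (hφ : IsNrm φ) (hI : Iso φ) {u : E n} (hu : ‖u‖ = 1) :
    2 * n * m1 n * φ u ≤ (n + 1) * mean φ := by
  sorry

theorem xp_iso (hc : Cert n) (b : HB n) {φ : E n → ℝ} (hφ : IsNrm φ) (hI : Iso φ) {m : ℝ}
    (hm : IsM φ m) : m ^ 2 ≤ mean φ ^ 2 - beta n * V b φ := by
  sorry

theorem zon_ge {φ : E n → ℝ} (hφ : IsNrm φ) (hI : Iso φ) (w : E n) :
    109 / 100 * mean φ / n * ‖w‖ ≤ zon φ w := by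
  sorry

theorem zon_nrm {φ : E n → ℝ} (hφ : IsNrm φ) (hI : Iso φ) : IsNrm (zon φ) := by
  sorry

theorem an (hc : Cert n) (b : HB n) {φ : E n → ℝ} (hφ : IsNrm φ) (hI : Iso φ) {m m' : ℝ}
    (hm : IsM φ m) (hm' : IsM (dual (zon φ)) m') :
    m1 n * m * m' ≤ 1 ∧ (m1 n * m * m' = 1 → ∀ x, dual (zon φ) x = m' * ‖x‖) := by
  sorry

end Vale.Agent.P237
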