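import Vale.Agent.P237.Base
import Vale.Agent.P230.L.APL

/-! The Brunn-Minkowski inequality for compact convex sets.

Plan. bm_mid': copy apl_any, mem_of_mid and bm_mid from Vale/Agent/P230/L/BM.lean (they only need
P230.L.APL) and transport to E n with PiLp.volume_preserving_toLp / ofLp.
bm_one: for compact convex A, B with vr = 1 the set of t with volume ((1-t) A + t B) ≥ volume of the
unit ball contains 0, 1, is closed under midpoints (convexity and bm_mid') and closed: if t_k → t,
(1-t_k) A + t_k B ⊆ cthickening δ ((1-t) A + t B) eventually, tendsto_measure_cthickening_of_isCompact.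
(Restrict to t in [0,1].) bm: if vr A = 0 or vr B = 0 use a translate; otherwise rescale:
A + B = (a + b) • ((1-t) • a⁻¹ • A + t • b⁻¹ • B), t = b / (a + b). -/

namespace Vale.Agent.P237

open MeasureTheory Set Metric Filter Topology
open scoped RealInnerProductSpace Pointwise NNReal ENNReal

variable {n : ℕ} [Fact (4 ≤ n)]

theorem vr_nonneg (A : Set (E n)) : 0 ≤ vr A := by
  sorry

theorem vr_pow (A : Set (E n)) : kappa n * vr A ^ n = (volume A).toReal := by
  sorry

theorem vr_le_iff {A : Set (E n)} {r : ℝ} (hr : 0 ≤ r) :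
    vr A ≤ r ↔ (volume A).toReal ≤ kappa n * r ^ n := by
  sorry

theorem le_vr_iff {A : Set (E n)} {r : ℝ} (hr : 0 ≤ r) :
    r ≤ vr A ↔ kappa n * r ^ n ≤ (volume A).toReal := by
  sorry

theorem vr_mono {A B : Set (E n)} (h : A ⊆ B) (hB : IsCompact B) : vr A ≤ vr B := by
  sorry

theorem vr_smul {t : ℝ} (ht : 0 ≤ t) (A : Set (E n)) : vr (t • A) = t * vr A := by
  sorry

theorem vr_closedBall (a : E n) {r : ℝ} (hr : 0 ≤ r) : vr (closedBall a r) = r := by
  sorry

theorem bm {A B : Set (E n)} (hA : IsCompact A) (hA' : Convex ℝ A) (hA0 : A.Nonempty)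
    (hB : IsCompact B) (hB' : Convex ℝ B) (hB0 : B.Nonempty) : vr A + vr B ≤ vr (A + B) := by
  sorry

end Vale.Agent.P237
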