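import Vale.Agent.P237.Defs

/-! Internal definitions for P237 (overview: notes/P237.md). -/

namespace Vale.Agent.P237

open MeasureTheory Set Metric
open scoped RealInnerProductSpace Pointwise NNReal

abbrev E (n : ℕ) := EuclideanSpace ℝ (Fin n)

variable {n : ℕ}

/-- The uniform probability measure of the unit sphere, as a measure on the whole space. -/
noncomputable def sph (n : ℕ) : Measure (E n) :=
  ((volume : Measure (E n)).toSphere univ)⁻¹ •
    ((volume : Measure (E n)).toSphere.map Subtype.val)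

/-- Positive homogeneity of degree `d`. -/
def Hom (d : ℕ) (F : E n → ℝ) : Prop := ∀ r : ℝ, 0 < r → ∀ x, F (r • x) = r ^ d * F x

/-- Admissible: Lipschitz and homogeneous of degree one. -/
def Adm (F : E n → ℝ) : Prop := (∃ K, LipschitzWith K F) ∧ Hom 1 F

/-- A norm, as a plain function. -/
structure IsNrm (φ : E n → ℝ) : Prop where
  smul : ∀ (r : ℝ) x, φ (r • x) = |r| * φ x
  add : ∀ x y, φ (x + y) ≤ φ x + φ y
  pos : ∀ x, x ≠ 0 → 0 < φ x

/-- The dual norm. -/
noncomputable def dual (φ : E n → ℝ) (x : E n) : ℝ := sSup ((fun y => ⟪x, y⟫) '' {y | φ y ≤ 1})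

/-- The set cut out by the half-spaces `⟪x, y⟫ ≤ H y`. -/
def wulff (H : E n → ℝ) : Set (E n) := {x | ∀ y, ⟪x, y⟫ ≤ H y}

/-- The tangential gradient (at unit vectors `u`). -/
noncomputable def D (F : E n → ℝ) (u : E n) : E n := gradient F u - ⟪gradient F u, u⟫ • u

/-- The degree one homogeneous extension of the restriction of `f` to the sphere. -/
noncomputable def ext (f : E n → ℝ) (x : E n) : ℝ := ‖x‖ * f (‖x‖⁻¹ • x)

noncomputable def mean (f : E n → ℝ) : ℝ := ∫ u, f u ∂sph n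

noncomputable def ip (f g : E n → ℝ) : ℝ := ∫ u, f u * g u ∂sph n

noncomputable def dir (f g : E n → ℝ) : ℝ := ∫ u, ⟪D f u, D g u⟫ ∂sph n

/-- `m` is the power mean of exponent `-n` of `φ` on the sphere. -/
def IsM (φ : E n → ℝ) (m : ℝ) : Prop := 0 < m ∧ ∫ u, (m / φ u) ^ n ∂sph n = 1

/-- The degree two harmonic part of `φ` vanishes. -/
def Iso (φ : E n → ℝ) : Prop := ∀ a : E n, ∫ u, φ u * ⟪a, u⟫ ^ 2 ∂sph n = ‖a‖ ^ 2 * mean φ / n

/-- The mean of `|u₁|` on the sphere (see `mom1`). -/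
noncomputable def m1 (n : ℕ) : ℝ := 2 * kappa (n - 1) / (n * kappa n)

/-- Polynomial functions of degree `< k`. -/
def Poly (n k : ℕ) : Submodule ℝ (E n → ℝ) :=
  Submodule.span ℝ {f | ∃ (a : E n) (j : ℕ), j < k ∧ f = fun x => ⟪a, x⟫ ^ j}

/-- Spherical harmonics of degree `k`. -/
def IsHarm (k : ℕ) (q : E n → ℝ) : Prop := q ∈ Poly n (k + 1) ∧ ∀ r ∈ Poly n k, ip q r = 0

/-- A Hilbert basis of spherical harmonics. -/
structure HB (n : ℕ) where
  ι : Type
  deg : ι → ℕ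
  e : ι → E n → ℝ
  harm : ∀ i, IsHarm (deg i) (e i)
  fin : ∀ k, {i | deg i = k}.Finite
  norm_one : ∀ i, ip (e i) (e i) = 1
  orth : ∀ i j, i ≠ j → ip (e i) (e j) = 0
  parseval : ∀ f g : E n → ℝ, MemLp f 2 (sph n) → MemLp g 2 (sph n) →
    HasSum (fun i => ip f (e i) * ip g (e i)) (ip f g)

/-- Squared norm of the part of degree at least four. -/
noncomputable def V (b : HB n) (f : E n → ℝ) : ℝ :=
  ∑' i, if 4 ≤ b.deg i then ip f (b.e i) ^ 2 else 0

/-- Eigenvalues of the cosine transform, divided by `m1 n`. -/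
noncomputable def cc (n : ℕ) : ℕ → ℝ
  | 0 => 1
  | 1 => 0
  | k + 2 => -((k : ℝ) - 1) / (n + k + 1) * cc n k

/-- Eigenvalues of the spherical Laplacian. -/
noncomputable def lam (n k : ℕ) : ℝ := k * ((k : ℝ) + n - 2)

noncomputable def beta (n : ℕ) : ℝ := (2 * n + 3) ^ 2 / (((n : ℝ) + 1) * (n + 3))

noncomputable def L2 (n : ℕ) : ℝ := 33 / 50 * n - 1 / 40

/-- The cosine transform. -/
noncomputable def Cf (f : E n → ℝ) (u : E n) : ℝ := ∫ v, |⟪u, v⟫| * f v ∂sph n

noncomputable def Af (f ψ : E n → ℝ) : ℝ :=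
  ∫ u, ∫ v, Real.sign ⟪u, v⟫ * f v * ⟪v, D ψ u⟫ ∂sph n ∂sph n

noncomputable def Bf (φ ψ : E n → ℝ) : ℝ :=
  ∫ u, ∫ v, Real.sign ⟪u, v⟫ * ⟪gradient φ v, gradient ψ u⟫ ∂sph n ∂sph n

/-- Support function of the zonoid generated by the gradients of `φ`. -/
noncomputable def zon (φ : E n → ℝ) (w : E n) : ℝ := ∫ v, |⟪gradient φ v, w⟫| ∂sph n

/-- The one variable certificate. -/
def Cert (n : ℕ) : Prop :=
  ∃ (P Q : ℝ) (G Γ g u w : ℝ → ℝ) (T : Finset ℝ) (K : ℝ≥0), 0 < P ∧ 0 < Q ∧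
    1 / P + 1 / Q ≤ 1 / beta n ∧ LipschitzWith K G ∧ LipschitzWith K Γ ∧ Measurable w ∧
    (∀ x, 0 ≤ Γ x) ∧ (∀ x, 0 ≤ w x ∧ w x ≤ K) ∧
    (∀ x ∉ T, HasDerivAt G (g x) x ∧ HasDerivAt Γ (u x) x) ∧ (∀ x, g x ^ 2 ≤ u x + w x) ∧
    ∀ x : ℝ, 0 < x → x ^ 2 ≤ L2 n →
      P * (x - 1 - G x) ^ 2 + Q / (4 * (n + 2)) * ((n - 1) * x * Γ x + w x * (L2 n - x ^ 2)) ≤
        2 * (x - 1) + 2 / n * (x⁻¹ ^ n - 1)

/-- Volume radius. -/
noncomputable def vr (A : Set (E n)) : ℝ := ((volume A).toReal / kappa n) ^ ((n : ℝ)⁻¹)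

/-- Volume gained by sweeping `K` along the segment `[0, y]`. -/
noncomputable def hK (K : Set (E n)) (y : E n) : ℝ :=
  (volume (K + segment ℝ 0 y)).toReal - (volume K).toReal

theorem hn4 [h : Fact (4 ≤ n)] : 4 ≤ n := h.out

theorem hn4' [h : Fact (4 ≤ n)] : (4 : ℝ) ≤ n := by exact_mod_cast h.out

instance nontrivialE [h : Fact (4 ≤ n)] : Nontrivial (E n) := by
  have : Nonempty (Fin n) := ⟨⟨0, by have := h.out; omega⟩⟩
  infer_instance

theorem kappa_pos (m : ℕ) : 0 < kappa m :=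
  ENNReal.toReal_pos (measure_closedBall_pos _ _ one_pos).ne' measure_closedBall_lt_top.ne

instance sph_prob [h : Fact (4 ≤ n)] : IsProbabilityMeasure (sph n) := by
  constructor
  unfold sph
  rw [Measure.smul_apply, smul_eq_mul, Measure.map_apply measurable_subtype_coe .univ,
    preimage_univ]
  apply ENNReal.inv_mul_cancel _ (measure_ne_top _ _)
  rw [Measure.toSphere_apply_univ, finrank_euclideanSpace_fin]
  exact mul_ne_zero (by have := h.out; exact_mod_cast (by omega : n ≠ 0))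
    (measure_ball_pos _ _ one_pos).ne'

theorem measurable_sign : Measurable Real.sign := by
  unfold Real.sign
  exact Measurable.ite measurableSet_Iio measurable_const
    (Measurable.ite measurableSet_Ioi measurable_const measurable_const)

theorem abs_sign_le (t : ℝ) : |Real.sign t| ≤ 1 := by
  rcases Real.sign_apply_eq t with h | h | h <;> simp [h]

theorem sign_mul_self (t : ℝ) : Real.sign t * t = |t| := by
  rcases lt_trichotomy t 0 with h | h | h
  · simp [Real.sign_of_neg h, abs_of_neg h]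
  · simp [h]
  · simp [Real.sign_of_pos h, abs_of_pos h]

end Vale.Agent.P237
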