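import Vale.Agent.P237.Ibp

/-! The bilinear form Bf in terms of the cosine transform and Af.

Plan. For a.e. u (unit, ψ differentiable): gradient ψ u = ψ u • u + D ψ u (Euler).
Tangential term: for fixed unit u and ξ = D ψ u (orthogonal to u) apply ibp with d = 0 to
F x = sign ⟪u,x⟫ * φ x, F' v = sign ⟪u,v⟫ * ⟪∇φ v, ξ⟫ (the sign is constant along ξ):
∫ sign * ⟪∇φ v, ξ⟫ = n ∫ sign * φ v * ⟪v, ξ⟫. This gives n * Af φ ψ.
Normal term: for a.e. v, ⟪∇φ v, u⟫ = φ v ⟪v,u⟫ + ⟪D φ v, u⟫; the first part gives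
∫ u, ψ u * Cf φ u (sign_mul_self), the second gives Af ψ φ after integral_integral_swap.
All integrands are bounded and jointly measurable (measurable_sign, measurable_grad, measurable_D,
Adm.exists_bound); integrability on the product: Integrable.of_bound with the a.e. bound from
ae_norm in both variables (Measure.ae_prod_iff_ae_ae or ae_ae_of_ae_prod, quasiMeasurePreserving_fst). -/

namespace Vale.Agent.P237

open MeasureTheory Set Metric Filter Topology
open scoped RealInnerProductSpace Pointwise NNReal ENNReal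

variable {n : ℕ} [Fact (4 ≤ n)]

theorem ae_norm_prod :
    ∀ᵐ p : E n × E n ∂(sph n).prod (sph n), ‖p.1‖ = 1 ∧ ‖p.2‖ = 1 := by
  sorry

theorem Bf_eq {φ ψ : E n → ℝ} (hφ : Adm φ) (hψ : Adm ψ) :
    Bf φ ψ = ip (Cf φ) ψ + Af ψ φ + n * Af φ ψ := by
  sorry

end Vale.Agent.P237
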