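import Vale.Agent.P237.Base

/-! Soundness of the piecewise linear certificates. -/

namespace Vale.Agent.P237

open Set
open scoped NNReal

/-- Parameters of a certificate. -/
structure Par where
  k : ℕ
  P : ℚ
  A : ℚ
  B : ℚ
  C : ℚ
  L : ℚ
  tl : Bool

/-- One piece: length and the three slopes. -/
structure Pc where
  h : ℚ
  g : ℚ
  u : ℚ
  w : ℚ

def okPc (c : Par) (a G Γ : ℚ) (p : Pc) : Bool :=
  let i := a⁻¹ ^ c.k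
  let H := a - 1 - G
  let c0 := 2 * (a - 1) + 2 / c.k * (i - 1) - c.P * H ^ 2 - c.A * a * Γ - p.w * (c.B - c.C * a ^ 2)
  let c1 := 2 - 2 * i / a - 2 * c.P * H * (1 - p.g) - c.A * (Γ + a * p.u) + 2 * p.w * c.C * a
  let c2 := (c.k + 1) * i / a ^ 2 - c.P * (1 - p.g) ^ 2 - c.A * p.u + p.w * c.C
  let c3 := -((c.k + 1) * (c.k + 2) * i / a ^ 3 / 3)
  decide (0 < p.h ∧ 0 ≤ p.u ∧ 0 ≤ p.w ∧ p.g ^ 2 ≤ p.u + p.w ∧ 0 ≤ c0 ∧ 0 ≤ c0 + c1 * p.h / 3 ∧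
    0 ≤ c0 + 2 * c1 * p.h / 3 + c2 * p.h ^ 2 / 3 ∧
    0 ≤ c0 + c1 * p.h + c2 * p.h ^ 2 + c3 * p.h ^ 3)

def okEnd (c : Par) (a G Γ : ℚ) : Bool :=
  if c.tl then
    decide (0 ≤ 2 * (a - 1) - 2 / c.k - c.P * (a - 1 - G) ^ 2 - c.A * a * Γ - c.B ∧ c.A * Γ ≤ 2 ∧
      0 ≤ c.C)
  else decide (c.L < a ^ 2)

def check (c : Par) : ℚ → ℚ → ℚ → List Pc → Bool
  | a, G, Γ, [] => okEnd c a G Γ
  | a, G, Γ, p :: l => okPc c a G Γ p && check c (a + p.h) (G + p.g * p.h) (Γ + p.u * p.h) l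

/-- What a checked certificate provides. -/
def CertP (c : Par) : Prop :=
  ∃ (G Γ g u w : ℝ → ℝ) (T : Finset ℝ) (K : ℝ≥0),
    LipschitzWith K G ∧ LipschitzWith K Γ ∧ Measurable w ∧
    (∀ x, 0 ≤ Γ x) ∧ (∀ x, 0 ≤ w x ∧ w x ≤ K) ∧
    (∀ x ∉ T, HasDerivAt G (g x) x ∧ HasDerivAt Γ (u x) x) ∧ (∀ x, g x ^ 2 ≤ u x + w x) ∧
    ∀ x : ℝ, 0 < x → (c.tl = true ∨ x ^ 2 ≤ c.L) →
      c.P * (x - 1 - G x) ^ 2 + c.A * x * Γ x + w x * (c.B - c.C * x ^ 2) ≤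
        2 * (x - 1) + 2 / c.k * (x⁻¹ ^ c.k - 1)

theorem certP (c : Par) (l : List Pc) (hk : 1 ≤ c.k) (hP : c.P ≤ c.k + 1)
    (h : check c 1 0 0 l = true) : CertP c := by
  sorry

end Vale.Agent.P237
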