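import Vale.Agent.P237.CertA

/-! The certificates. -/

namespace Vale.Agent.P237

theorem cert {n : ℕ} (hn : 4 ≤ n) : Cert n := by
  sorry

end Vale.Agent.P237
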