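import Vale.Agent.P237.Nrm

/-! The convexity inequality (the Laplacian of a convex function is nonnegative).

Plan. η x = F x * max (1 - ‖x‖^2) 0 is nonnegative, Lipschitz, supported in the unit ball. For a
basis vector ξ and s > 0, convexity and translation invariance give
0 ≤ ∫ η x (φ (x + s ξ) + φ (x - s ξ) - 2 φ x) = - ∫ (η (x + s ξ) - η x) (φ (x + s ξ) - φ x).
Divide by s^2, let s tend to 0 by dominated convergence (F, φ differentiable a.e., the sphere is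
null): ∫ over the ball of (⟪∇F,ξ⟫ (1 - ‖x‖^2) - 2 F ⟪x,ξ⟫) ⟪∇φ,ξ⟫ ≤ 0. Sum over an orthonormal basis
and use Euler (⟪∇φ x, x⟫ = φ x): ∫_B ⟪∇F,∇φ⟫ (1 - ‖x‖^2) ≤ 2 ∫_B F φ. integral_ball_hom (degrees
0, 2, 2; Hom.grad_smul) gives ∫ ⟪∇F,∇φ⟫ ≤ n ∫ F φ on the sphere; finish with inner_D_D. -/

namespace Vale.Agent.P237

open MeasureTheory Set Metric Filter Topology
open scoped RealInnerProductSpace Pointwise NNReal ENNReal

variable {n : ℕ} [Fact (4 ≤ n)]

theorem cvx {φ F : E n → ℝ} (hφ : IsNrm φ) (hF : Adm F) (h0 : ∀ x, 0 ≤ F x) :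
    dir F φ ≤ (n - 1) * ip F φ := by
  sorry

end Vale.Agent.P237
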