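import Vale.Agent.P237.Grad

/-! Homogeneous extensions and the chain rule.

Plan. ext_adm: for x, y ≠ 0, ext f x - ext f y = (‖x‖ - ‖y‖) f (x/‖x‖) + ‖y‖ (f (x/‖x‖) - f (y/‖y‖))
and ‖y‖ * ‖x/‖x‖ - y/‖y‖‖ ≤ 2 ‖x - y‖; f is bounded on the sphere.
ext_diff: chain rule; y ↦ ‖y‖ has gradient u at the unit vector u, y ↦ ‖y‖⁻¹ • y has derivative
ξ ↦ ξ - ⟪u,ξ⟫ u there. So gradient (ext f) u = f u • u + D f u.
chain: a.e. u is a unit vector where X and, for all t ∈ T, p_t = ext (max (X - t) 0) and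
q_t = ext (max (t - X) 0) are differentiable. If X u ∉ T use ext_diff and the usual chain rule.
If X u = t ∈ T: p_t and q_t are nonnegative and vanish at u, so their derivatives vanish;
X y = p_t y - q_t y + t ‖y‖ for all y, so gradient X u = t • u and D X u = 0; finally
|ext (G ∘ X) y - G t * ‖y‖| ≤ K (p_t y + q_t y) = o(‖y - u‖), so the gradient of ext (G ∘ X) at u
is G t • u and its D vanishes. -/

namespace Vale.Agent.P237

open MeasureTheory Set Metric Filter Topology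
open scoped RealInnerProductSpace Pointwise NNReal ENNReal

variable {n : ℕ} [Fact (4 ≤ n)]

omit [Fact (4 ≤ n)] in
theorem ext_eq (f : E n → ℝ) {u : E n} (hu : ‖u‖ = 1) : ext f u = f u := by
  sorry

theorem ext_adm {f : E n → ℝ} {K : ℝ}
    (h : ∀ u v, ‖u‖ = 1 → ‖v‖ = 1 → |f u - f v| ≤ K * ‖u - v‖) : Adm (ext f) := by
  sorry

omit [Fact (4 ≤ n)] in
theorem ext_diff {f : E n → ℝ} {u : E n} (hu : ‖u‖ = 1) (hf : DifferentiableAt ℝ f u) :
    DifferentiableAt ℝ (ext f) u ∧ gradient (ext f) u = f u • u + D f u ∧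
      D (ext f) u = D f u := by
  sorry

theorem chain {X : E n → ℝ} (hX : Adm X) {G g : ℝ → ℝ} {K : ℝ≥0} (hG : LipschitzWith K G)
    (T : Finset ℝ) (hd : ∀ x ∉ T, HasDerivAt G (g x) x) :
    Adm (ext fun x => G (X x)) ∧
      ∀ᵐ u ∂sph n, D (ext fun x => G (X x)) u = g (X u) • D X u := by
  sorry

end Vale.Agent.P237
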