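import Vale.Agent.P237.Sph

/-! Gradients of admissible functions.

Plan. ae_diff: LipschitzWith.ae_differentiableAt (Rademacher) and ae_of_cone (differentiability of
a homogeneous function is invariant under positive scaling: F = r^-d * F (r • .)).
euler: derivative of t ↦ F (t • u) = t * F u at t = 1. norm_grad_le: norm_fderiv_le_of_lip' or
gradient = 0 at points of non differentiability. measurable_grad: measurable_fderiv composed with
the continuous map (toDual).symm. -/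

namespace Vale.Agent.P237

open MeasureTheory Set Metric Filter Topology
open scoped RealInnerProductSpace Pointwise NNReal ENNReal

variable {n : ℕ} [Fact (4 ≤ n)]

omit [Fact (4 ≤ n)] in
theorem measurable_grad (F : E n → ℝ) : Measurable (gradient F) := by
  sorry

omit [Fact (4 ≤ n)] in
theorem measurable_D (F : E n → ℝ) : Measurable (D F) := by
  sorry

omit [Fact (4 ≤ n)] in
theorem inner_grad {F : E n → ℝ} (u ξ : E n) : ⟪gradient F u, ξ⟫ = fderiv ℝ F u ξ := by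
  sorry

omit [Fact (4 ≤ n)] in
theorem hasLineDerivAt_grad {F : E n → ℝ} {u : E n} (h : DifferentiableAt ℝ F u) (ξ : E n) :
    HasLineDerivAt ℝ F ⟪gradient F u, ξ⟫ u ξ := by
  sorry

omit [Fact (4 ≤ n)] in
theorem norm_grad_le {F : E n → ℝ} {L : ℝ} (h0 : 0 ≤ L) (hL : ∀ x y, |F x - F y| ≤ L * ‖x - y‖)
    (u : E n) : ‖gradient F u‖ ≤ L := by
  sorry

omit [Fact (4 ≤ n)] in
theorem Hom.euler {d : ℕ} {F : E n → ℝ} (h : Hom d F) {u : E n} (hd : DifferentiableAt ℝ F u) :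
    ⟪gradient F u, u⟫ = d * F u := by
  sorry

omit [Fact (4 ≤ n)] in
theorem Hom.diff_smul {d : ℕ} {F : E n → ℝ} (h : Hom d F) {r : ℝ} (hr : 0 < r) (x : E n) :
    DifferentiableAt ℝ F (r • x) ↔ DifferentiableAt ℝ F x := by
  sorry

omit [Fact (4 ≤ n)] in
theorem Hom.grad_smul {F : E n → ℝ} (h : Hom 1 F) {r : ℝ} (hr : 0 < r) (x : E n) :
    gradient F (r • x) = gradient F x := by
  sorry

omit [Fact (4 ≤ n)] in
theorem Adm.continuous {F : E n → ℝ} (h : Adm F) : Continuous F := by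
  sorry

omit [Fact (4 ≤ n)] in
theorem Adm.exists_bound {F : E n → ℝ} (h : Adm F) :
    ∃ L, 0 ≤ L ∧ (∀ x y, |F x - F y| ≤ L * ‖x - y‖) ∧ (∀ x, |F x| ≤ L * ‖x‖) ∧
      (∀ x, ‖gradient F x‖ ≤ L) ∧ ∀ u, ‖u‖ = 1 → ‖D F u‖ ≤ L := by
  sorry

theorem Adm.ae_diff {F : E n → ℝ} (h : Adm F) : ∀ᵐ u ∂sph n, DifferentiableAt ℝ F u := by
  sorry

omit [Fact (4 ≤ n)] in
theorem inner_D_self (F : E n → ℝ) {u : E n} (hu : ‖u‖ = 1) : ⟪D F u, u⟫ = 0 := by
  sorry

omit [Fact (4 ≤ n)] in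
theorem inner_D_D (F G : E n → ℝ) {u : E n} (hu : ‖u‖ = 1) :
    ⟪D F u, D G u⟫ = ⟪gradient F u, gradient G u⟫ - ⟪gradient F u, u⟫ * ⟪gradient G u, u⟫ := by
  sorry

omit [Fact (4 ≤ n)] in
theorem norm_D_le (F : E n → ℝ) {u : E n} (hu : ‖u‖ = 1) : ‖D F u‖ ≤ ‖gradient F u‖ := by
  sorry

omit [Fact (4 ≤ n)] in
theorem D_add {F G : E n → ℝ} {u : E n} (hF : DifferentiableAt ℝ F u)
    (hG : DifferentiableAt ℝ G u) : D (F + G) u = D F u + D G u := by
  sorry

omit [Fact (4 ≤ n)] in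
theorem D_smul (c : ℝ) {F : E n → ℝ} {u : E n} (hF : DifferentiableAt ℝ F u) :
    D (c • F) u = c • D F u := by
  sorry

theorem Adm.integrable_dir {F G : E n → ℝ} (hF : Adm F) (hG : Adm G) :
    Integrable (fun u => ⟪D F u, D G u⟫) (sph n) := by
  sorry

omit [Fact (4 ≤ n)] in
theorem dir_comm (f g : E n → ℝ) : dir f g = dir g f := by
  sorry

omit [Fact (4 ≤ n)] in
theorem ip_comm (f g : E n → ℝ) : ip f g = ip g f := by
  sorry

end Vale.Agent.P237
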