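import Vale.Agent.P237.Poly

/-! Existence of a Hilbert basis of spherical harmonics.

Plan. In H = Lp ℝ 2 (sph n) let P k be the image of Poly n k under the linear map
Poly n k →ₗ H, q ↦ (Poly.memLp q.2 2).toLp (MemLp.toLp_add, toLp_const_smul); it is finite
dimensional and monotone in k; inner (toLp f) (toLp g) = ip f g (L2.inner_def, MemLp.coeFn_toLp).
W k = P (k+1) ⊓ (P k)ᗮ, b k = stdOrthonormalBasis ℝ (W k), ι = Σ k, Fin (finrank (W k)).
The family is orthonormal (W j ≤ P (j+1) ≤ P k for j < k). If f is orthogonal to the family then f
is orthogonal to P k by induction (P (k+1) = P k ⊔ W k,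
Submodule.sup_orthogonal_inf_of_hasOrthogonalProjection), so f = 0 by dense_poly.
HilbertBasis.mkOfOrthogonalEqBot and HilbertBasis.hasSum_inner_mul_inner give parseval.
Choose the representatives e i ∈ Poly n (deg i + 1) with Classical.choose. -/

namespace Vale.Agent.P237

open MeasureTheory Set Metric Filter Topology
open scoped RealInnerProductSpace Pointwise NNReal ENNReal

variable {n : ℕ} [Fact (4 ≤ n)]

theorem exists_HB : Nonempty (HB n) := by
  sorry

end Vale.Agent.P237
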