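import Vale.Agent.P237.Grad

/-! Integration by parts on the sphere.

Plan for ibp. Put ω x = max (1 - ‖x‖^2) 0 and F1 x = ‖x‖^d * F' (‖x‖⁻¹ • x) (replace F' by a
measurable bounded modification first; it is bounded by C a.e. as a limit of difference quotients).
By homogeneity F has line derivative F1 x at volume-a.e. x (ae_of_cone). For s ≠ 0 translation
invariance (integral_add_right_eq_self) gives
∫ (F (x + s ξ) - F x) / s * ω x = ∫ F x * (ω (x - s ξ) - ω x) / s. Let s = s_k tend to 0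
(tendsto_integral_of_dominated_convergence; everything vanishes outside the ball of radius 2 when
|s| ‖ξ‖ ≤ 1, ω is 2-Lipschitz, the sphere is null): ∫ over ball of F1 (1 - ‖x‖^2) = ∫ over ball of
2 ⟪ξ,x⟫ F x. Evaluate the three homogeneous integrals (degrees d, d+2, d+2) by integral_ball_hom:
1/(n+d) - 1/(n+d+2) = 2/((n+d)(n+d+2)).
ibp_adm, ibp_c1: special cases; a C1 function is Lipschitz on the closed ball of radius 2
(bounded continuous derivative, Convex.norm_image_sub_le_of_norm_fderiv_le). -/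

namespace Vale.Agent.P237

open MeasureTheory Set Metric Filter Topology
open scoped RealInnerProductSpace Pointwise NNReal ENNReal

variable {n : ℕ} [Fact (4 ≤ n)]

theorem ibp {d : ℕ} {F F' : E n → ℝ} (ξ : E n) (hF : Hom (d + 1) F) (hm : Measurable F)
    (hm' : AEStronglyMeasurable F' (sph n)) {C : ℝ} (hb : ∀ u, ‖u‖ = 1 → |F u| ≤ C)
    (hl : ∀ (x : E n) (s : ℝ), ‖x‖ ≤ 2 → ‖x + s • ξ‖ ≤ 2 → |F (x + s • ξ) - F x| ≤ C * |s|)
    (hd : ∀ᵐ u ∂sph n, HasLineDerivAt ℝ F (F' u) u ξ) :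
    ∫ u, F' u ∂sph n = (n + d) * ∫ u, ⟪ξ, u⟫ * F u ∂sph n := by
  sorry

theorem ibp_adm {d : ℕ} {ψ g : E n → ℝ} (ξ : E n) (hψ : Adm ψ) (hg : ContDiff ℝ 1 g)
    (hg' : Hom d g) :
    ∫ u, (⟪gradient ψ u, ξ⟫ * g u + ψ u * ⟪gradient g u, ξ⟫) ∂sph n =
      (n + d) * ∫ u, ⟪ξ, u⟫ * (ψ u * g u) ∂sph n := by
  sorry

theorem ibp_c1 {d : ℕ} {F : E n → ℝ} (ξ : E n) (hF : ContDiff ℝ 1 F) (hF' : Hom (d + 1) F) :
    ∫ u, ⟪gradient F u, ξ⟫ ∂sph n = (n + d) * ∫ u, ⟪ξ, u⟫ * F u ∂sph n := by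
  sorry

omit [Fact (4 ≤ n)] in
theorem grad_inner_pow (a : E n) (j : ℕ) (x : E n) :
    gradient (fun y : E n => ⟪a, y⟫ ^ j) x = ((j : ℝ) * ⟪a, x⟫ ^ (j - 1)) • a := by
  sorry

omit [Fact (4 ≤ n)] in
theorem adm_abs_inner (a : E n) : Adm fun x : E n => |⟪a, x⟫| := by
  sorry

omit [Fact (4 ≤ n)] in
theorem grad_abs_inner {a x : E n} (h : ⟪a, x⟫ ≠ 0) :
    DifferentiableAt ℝ (fun y : E n => |⟪a, y⟫|) x ∧
      gradient (fun y : E n => |⟪a, y⟫|) x = Real.sign ⟪a, x⟫ • a := by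
  sorry

/-- The identity behind the normalisation `Iso`. -/
theorem grad_moment {φ : E n → ℝ} (hφ : Adm φ) (a : E n) :
    ∫ u, ⟪gradient φ u, a⟫ * ⟪a, u⟫ ∂sph n =
      (n + 1) * ∫ u, φ u * ⟪a, u⟫ ^ 2 ∂sph n - ‖a‖ ^ 2 * mean φ := by
  sorry

end Vale.Agent.P237
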