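import Vale.Agent.P237.Ibp

/-! Moments of linear functionals on the sphere.

Plan. kappa_eq: EuclideanSpace.volume_closedBall (m = 0 separately, or
InnerProductSpace.volume_closedBall). mom1 for e = the first basis vector e0: compute
I = ∫ |x 0| * exp (-‖x‖^2) in two ways. Product formula (PiLp.volume_preserving_toLp,
integral_fintype_prod_volume_eq_prod, integral_gaussian, ∫ |t| exp (-t^2) = 1): I = sqrt π ^ (n-1).
Polar formula (polar_lintegral, or integral version obtained from it):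
I = n kappa n * (mean of |u 0|) * ∫ r^n exp (-r^2) over r > 0, the last factor being
Gamma ((n+1)/2) / 2 (integral_rpow_mul_exp_neg_rpow). General e: integral_iso with an isometry
sending e / ‖e‖ to e0 (Submodule.reflection_sub). mom2, mom4: ibp_c1 for ⟪e,x⟫ and ⟪e,x⟫^3.
mom3: ibp_adm with ψ = |⟪e,x⟫|, g = ⟪e,x⟫. -/

namespace Vale.Agent.P237

open MeasureTheory Set Metric Filter Topology
open scoped RealInnerProductSpace Pointwise NNReal ENNReal

variable {n : ℕ} [Fact (4 ≤ n)]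

omit [Fact (4 ≤ n)] in
theorem kappa_eq (m : ℕ) : kappa m = √Real.pi ^ m / Real.Gamma (m / 2 + 1) := by
  sorry

theorem mom1 (e : E n) : ∫ u, |⟪e, u⟫| ∂sph n = m1 n * ‖e‖ := by
  sorry

theorem mom2 (e : E n) : ∫ u, ⟪e, u⟫ ^ 2 ∂sph n = ‖e‖ ^ 2 / n := by
  sorry

theorem mom3 {e : E n} (he : ‖e‖ = 1) : ∫ u, |⟪e, u⟫| ^ 3 ∂sph n = 2 * m1 n / (n + 1) := by
  sorry

theorem mom4 {e : E n} (he : ‖e‖ = 1) : ∫ u, ⟪e, u⟫ ^ 4 ∂sph n = 3 / (n * (n + 2)) := by
  sorry

end Vale.Agent.P237
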