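import Vale.Agent.P237.Poly
import Vale.Agent.P237.Mom

/-! Harmonics are eigenfunctions of the Laplacian.

Plan. eig: ip r r = ip r (s k • q + r) = b r q = b q r (IsHarm gives ip r q = 0). If k = 0, r = 0.
If k = j + 1, hst applied to r gives b q r = ip q (s j • r + r') = 0. Then eq_zero_of_ip.
lap_step: Poly.step. For q = ⟪a,x⟫^j and ψ admissible: D q u = j ⟪a,u⟫^(j-1) • (a - ⟪a,u⟫ u)
(grad_inner_pow), ⟪D ψ u, D q u⟫ = j ⟪a,u⟫^(j-1) (⟪∇ψ u, a⟫ - ⟪a,u⟫ ψ u) a.e. (Euler), and ibp_adm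
with g = ⟪a,x⟫^(j-1), ξ = a gives
dir ψ q = lam n j * ip ψ q - j (j-1) ‖a‖^2 * ip ψ (⟪a,x⟫^(j-2)). If j < k put the whole right side
minus lam n k • q into r. dir_harm_poly: dir p q = dir (ext p) q by Poly.ext_adm. dir_harm: eig with
b = dir.
ip_two: the functional q ↦ ip φ q - mean φ * mean q vanishes on Poly n 3 (generators of degree 0, 1
(integral_odd), 2 (Iso and mom2)); mean q = ip q 1 = 0. hasSum_zero: for deg i = 0, e i is a
constant c i, ip f (e i) = c i * mean f; for deg i > 0, ip 1 (e i) = 0; compare with parseval f 1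
and parseval for g: the summand equals ip f (e i) * ip 1 (e i) * mean g. -/

namespace Vale.Agent.P237

open MeasureTheory Set Metric Filter Topology
open scoped RealInnerProductSpace Pointwise NNReal ENNReal

variable {n : ℕ} [Fact (4 ≤ n)]

theorem eig (s : ℕ → ℝ) (b : (E n → ℝ) → (E n → ℝ) → ℝ)
    (hsym : ∀ j k, ∀ p ∈ Poly n j, ∀ q ∈ Poly n k, b p q = b q p)
    (hst : ∀ k, ∀ q ∈ Poly n (k + 1), ∃ r ∈ Poly n k,
      ∀ j, ∀ p ∈ Poly n j, b p q = ip p (s k • q + r))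
    {k : ℕ} {q r : E n → ℝ} (hq : IsHarm k q) (hr : r ∈ Poly n k)
    (h : ∀ j, ∀ p ∈ Poly n j, b p q = ip p (s k • q + r)) : ∀ u, ‖u‖ = 1 → r u = 0 := by
  sorry

theorem lap_step (k : ℕ) : ∀ q ∈ Poly n (k + 1), ∃ r ∈ Poly n k,
    ∀ ψ, Adm ψ → dir ψ q = ip ψ (lam n k • q + r) := by
  sorry

theorem dir_harm {ψ q : E n → ℝ} {k : ℕ} (hψ : Adm ψ) (hq : IsHarm k q) :
    dir ψ q = lam n k * ip ψ q := by
  sorry

theorem dir_harm_poly {p q : E n → ℝ} {j k : ℕ} (hp : p ∈ Poly n j) (hq : IsHarm k q) :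
    dir p q = lam n k * ip p q := by
  sorry

theorem ip_two {φ q : E n → ℝ} (hc : Continuous φ) (hf : ∀ u, φ (-u) = φ u) (hI : Iso φ)
    (hq : IsHarm 2 q) : ip φ q = 0 := by
  sorry

theorem hasSum_zero (b : HB n) {f g : E n → ℝ} (hf : MemLp f 2 (sph n)) :
    HasSum (fun i => if b.deg i = 0 then ip f (b.e i) * ip g (b.e i) else 0)
      (mean f * mean g) := by
  sorry

end Vale.Agent.P237
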