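import Vale.Agent.P237.Nrm
import Vale.Agent.P237.Mom

/-! The normalised position.

Plan. f T = ∫ φ (T v) for T : E n →L[ℝ] E n is Lipschitz (|f S - f T| ≤ C ‖S - T‖) and
f T ≥ c m1 ‖T‖: for unit w, ‖T v‖ ≥ |⟪adjoint T w, v⟫|, mom1, and ‖T‖ = ‖adjoint T‖ (or any cruder
coercivity bound, e.g. by compactness of the unit sphere of operators and eq_of_ae_eq). So f has a
minimum T0 on the closed set det = 1 (ContinuousLinearMap.continuous_det; intersect with a closed
ball, IsCompact.exists_isMinOn). Put φ0 = φ ∘ T0, μ = mean φ0. For unit a and t > 0 the map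
U t = t⁻¹ • (1 + (t^n - 1) • a ⊗ a) has determinant 1 (matrix in an orthonormal basis, or
Matrix.det_one_add_replicateCol_mul_replicateRow, LinearMap.det_smul), so
F (t^n - 1) ≥ t μ where F s = ∫ φ0 (v + s ⟪a,v⟫ a), with equality at t = 1.
F has derivative ∫ ⟪∇φ0 v, a⟫ ⟪a,v⟫ at 0 (hasDerivAt_integral_of_dominated_loc_of_lip,
Adm.ae_diff), so n F'(0) = μ (IsLocalMin.hasDerivAt_eq_zero). grad_moment gives Iso for unit a;
scale. -/

namespace Vale.Agent.P237

open MeasureTheory Set Metric Filter Topology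
open scoped RealInnerProductSpace Pointwise NNReal ENNReal

variable {n : ℕ} [Fact (4 ≤ n)]

theorem exists_iso {φ : E n → ℝ} (hφ : IsNrm φ) :
    ∃ T : E n ≃ₗ[ℝ] E n, LinearMap.det (T : E n →ₗ[ℝ] E n) = 1 ∧ Iso fun x => φ (T x) := by
  sorry

end Vale.Agent.P237
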