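import Vale.Agent.P237.Shad
import Vale.Agent.P237.Nrm

/-! The function hK is a norm; adding several segments.

Plan. hK_affine: a + T K + [0, T y] is the affine image of K + [0, y]; Measure.addHaar_image_linearMap
and translation invariance (measure_preimage_add, or image_add_left). hK_smul_nonneg from hK_eq
(y = ‖y‖ • u), hK_neg: K + [0,-y] is a translate of K + [0,y]. hK_dil: hK_affine with T = t • id
(determinant t^n) and hK_smul_nonneg. seg_le: let closedBall a ρ ⊆ K, c = 1/ρ. Induction on s: for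
Z = ∑ segments ⊆ closedBall 0 R, K + Z ⊆ (fun x => a' + (1 + c R) • x) '' K with a' = -(c R) • a
(convexity), so hK (K + Z) y ≤ (1 + c R)^(n-1) hK K y by hK_mono and hK_dil; and
volume (K + Z + [0,y]) = volume (K + Z) + hK (K + Z) y by definition.
hK_nrm: add: segment 0 (ε (y+z)) ⊆ segment 0 (ε y) + segment 0 (ε z), seg_le with two segments
(index type Bool or Fin 2), divide by ε, let ε tend to 0. pos: hK_eq, shadow_pos.
projBody_eq: hK_eq and homogeneity. -/

namespace Vale.Agent.P237

open MeasureTheory Set Metric Filter Topology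
open scoped RealInnerProductSpace Pointwise NNReal ENNReal

variable {n : ℕ} [Fact (4 ≤ n)]

theorem hK_affine (K : Set (E n)) (a : E n) (T : E n ≃ₗ[ℝ] E n) (y : E n) :
    hK ((fun x => a + T x) '' K) (T y) = |LinearMap.det (T : E n →ₗ[ℝ] E n)| * hK K y := by
  sorry

theorem vol_affine (K : Set (E n)) (a : E n) (T : E n ≃ₗ[ℝ] E n) :
    (volume ((fun x => a + T x) '' K)).toReal =
      |LinearMap.det (T : E n →ₗ[ℝ] E n)| * (volume K).toReal := by
  sorry

theorem IsConvexBody.affine {K : Set (E n)} (hK : IsConvexBody K) (a : E n)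
    (T : E n ≃ₗ[ℝ] E n) : IsConvexBody ((fun x => a + T x) '' K) := by
  sorry

theorem IsConvexBody.vol_pos {K : Set (E n)} (hK : IsConvexBody K) : 0 < (volume K).toReal := by
  sorry

theorem IsConvexBody.exists_dil {K : Set (E n)} (hK : IsConvexBody K) :
    ∃ (c : ℝ) (a : E n), 0 < c ∧ ∀ R : ℝ, 0 ≤ R →
      K + closedBall 0 R ⊆ (fun x => -(c * R) • a + (1 + c * R) • x) '' K := by
  sorry

theorem hK_smul_nonneg {K : Set (E n)} (hc : IsCompact K) (hv : Convex ℝ K) {t : ℝ} (ht : 0 ≤ t)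
    (y : E n) : hK K (t • y) = t * hK K y := by
  sorry

theorem hK_neg (K : Set (E n)) (y : E n) : hK K (-y) = hK K y := by
  sorry

theorem hK_mono {K K' : Set (E n)} (hc : IsCompact K) (hv : Convex ℝ K) (hc' : IsCompact K')
    (hv' : Convex ℝ K') (h : K ⊆ K') (y : E n) : hK K y ≤ hK K' y := by
  sorry

theorem hK_dil {K : Set (E n)} (hc : IsCompact K) (hv : Convex ℝ K) (a : E n) {t : ℝ}
    (ht : 0 < t) (y : E n) : hK ((fun x => a + t • x) '' K) y = t ^ (n - 1) * hK K y := by
  sorry

theorem isCompact_sum_seg {ι : Type} (s : Finset ι) (x y : ι → E n) :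
    IsCompact (∑ i ∈ s, segment ℝ (x i) (y i)) ∧ Convex ℝ (∑ i ∈ s, segment ℝ (x i) (y i)) := by
  sorry

theorem seg_le {K : Set (E n)} (hK' : IsConvexBody K) : ∃ c : ℝ, 0 < c ∧
    ∀ (ι : Type) (s : Finset ι) (y : ι → E n),
      (volume (K + ∑ i ∈ s, segment ℝ 0 (y i))).toReal ≤
        (volume K).toReal + (1 + c * ∑ i ∈ s, ‖y i‖) ^ (n - 1) * ∑ i ∈ s, hK K (y i) := by
  sorry

theorem hK_nrm {K : Set (E n)} (hK' : IsConvexBody K) : IsNrm (hK K) := by
  sorry

theorem projBody_eq {K : Set (E n)} (hK' : IsConvexBody K) : projBody K = wulff (hK K) := by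
  sorry

end Vale.Agent.P237
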