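import Vale.Agent.P237.BM
import Vale.Agent.P237.Seg
import Vale.Agent.P237.Spec
import Vale.Agent.P237.HBx

/-! Equality in the isoperimetric inequality forces a ball.

Plan. h y = sSup of ⟪x,y⟫ over K (attained), K ⊆ closedBall 0 R, h is R-Lipschitz, homogeneous.
A s = closedBall 0 1 + s • K, r = vr K. Scaling the hypothesis (δ = 1/s) gives vr (A s) ≤ 1 + s r,
bm gives vr (A s) ≥ 1 + s r.
mean_le: for s R ≤ 1/2 and unit v, ρ • v ∈ A s whenever 0 ≤ ρ ≤ 1 + s h v - s^2 R^2 (take k ∈ K with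
⟪k,v⟫ = h v: ‖ρ v - s k‖^2 = (ρ - s h v)^2 + s^2 (‖k‖^2 - h v ^2) ≤ (1-a)^2 + a ≤ 1, a = s^2 R^2).
le_vol_of_radial, Bernoulli (one_add_mul_le_pow): 1 + n (s mean h - s^2 R^2) ≤ (1 + s r)^n; s → 0.
second order: with z = D h v, testing x = ρ v ∈ A s against y = v - s z gives
ρ ≤ ‖y‖ + s h y ≤ 1 + s h v + s^2 e s v, e s v = ‖z‖^2/2 + (h (v - s z) - h v)/s, which is bounded by
2 R^2 and tends to -‖z‖^2/2 where h is differentiable. vol_le_of_radial and
(1+x)^n ≤ 1 + n x + n(n-1)/2 x^2 + C |x|^3 for |x| ≤ 1, (1 + s r)^n ≥ 1 + n s r + n(n-1)/2 s^2 r^2.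
First order: r ≤ mean h, so mean h = r; second order: dir h h ≤ (n-1)(ip h h - mean h ^2).
poincare_eq: h y = c ‖y‖ + ⟪a,y⟫; K = closedBall a c by geometric_hahn_banach_point_closed; c > 0
because K has interior (or positive volume). -/

namespace Vale.Agent.P237

open MeasureTheory Set Metric Filter Topology
open scoped RealInnerProductSpace Pointwise NNReal ENNReal

variable {n : ℕ} [Fact (4 ≤ n)]

theorem ball_of_eq {K : Set (E n)} (hK' : IsConvexBody K)
    (h : ∀ δ : ℝ, 0 ≤ δ → vr (K + δ • closedBall 0 1) ≤ vr K + δ) :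
    ∃ (a : E n) (c : ℝ), 0 < c ∧ K = closedBall a c := by
  sorry

end Vale.Agent.P237
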