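import Vale.Agent.P237.Seg
import Vale.Agent.P237.BM

/-! First variation of volume along a zonoid.

Plan. slope_le: for 0 < ε ≤ δ, K + ε Z = (1 - ε/δ) • K + (ε/δ) • (K + δ Z) (convexity of K:
Convex.add_smul), so bm and vr_smul give vr (K + δ Z) - vr K ≤ (δ/ε) (vr (K + ε Z) - vr K); and
kappa * vr (K + ε Z)^n ≤ kappa * r^n + ε * g ε with r = vr K > 0; since
(r + x)^n ≥ r^n + n r^(n-1) x for x ≥ 0, vr (K + ε Z) - r ≤ ε g ε / (n kappa r^(n-1)). Let ε → 0.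
zonotope: ε • ∑ segment (-y i) (y i) is a translate of ∑ segment 0 (2 ε y i); seg_le.
mem_zonotope: geometric_hahn_banach_point_closed for the compact convex zonotope; the point
∑ sign ⟪y i, w⟫ • y i of it has inner product ∑ |⟪y i, w⟫| with w.
zon_bm: change g on a null set (put 0 there) so that hK K (g v) ≤ 1 everywhere. Simple functions
s_k = SimpleFunc.approxOn g _ (range g ∪ {0}) 0 _ k take values in range g ∪ {0} and tend to g in
L1 (SimpleFunc.tendsto_approxOn_range_L1_enorm, or dominated convergence). With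
y x = (sph n).real (s_k ⁻¹' {x}) • x for x ∈ s_k.range: ∑ hK K (y x) ≤ 1,
∑ |⟪y x, w⟫| = ∫ |⟪s_k v, w⟫| ≥ H w - η ‖w‖ ≥ (1 - η/c) H w (SimpleFunc.integral_eq_sum for
s_k.map). Hence (1 - η/c) • wulff H ⊆ zonotope; apply zonotope with δ / (1 - η/c), let η → 0. -/

namespace Vale.Agent.P237

open MeasureTheory Set Metric Filter Topology
open scoped RealInnerProductSpace Pointwise NNReal ENNReal

variable {n : ℕ} [Fact (4 ≤ n)]

theorem slope_le {K Z : Set (E n)} (hK' : IsConvexBody K) (hZ : IsCompact Z) (hZ' : Convex ℝ Z)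
    (hZ0 : (0 : E n) ∈ Z) {g : ℝ → ℝ} {g0 : ℝ} (hg : Tendsto g (𝓝[>] 0) (𝓝 g0))
    (h : ∀ ε : ℝ, 0 < ε → (volume (K + ε • Z)).toReal ≤ (volume K).toReal + ε * g ε)
    {δ : ℝ} (hδ : 0 ≤ δ) :
    vr (K + δ • Z) ≤ vr K + δ * (g0 / (n * kappa n * vr K ^ (n - 1))) := by
  sorry

theorem zonotope {K : Set (E n)} (hK' : IsConvexBody K) {ι : Type} (s : Finset ι) (y : ι → E n)
    (hy : ∑ i ∈ s, hK K (y i) ≤ 1) {δ : ℝ} (hδ : 0 ≤ δ) :
    vr (K + δ • ∑ i ∈ s, segment ℝ (-y i) (y i)) ≤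
      vr K + δ * (2 / (n * kappa n * vr K ^ (n - 1))) := by
  sorry

theorem mem_zonotope {ι : Type} (s : Finset ι) (y : ι → E n) {x : E n}
    (h : ∀ w, ⟪x, w⟫ ≤ ∑ i ∈ s, |⟪y i, w⟫|) : x ∈ ∑ i ∈ s, segment ℝ (-y i) (y i) := by
  sorry

theorem zon_bm {K : Set (E n)} (hK' : IsConvexBody K) {g : E n → E n} (hm : Measurable g)
    (hg : ∀ᵐ v ∂sph n, hK K (g v) ≤ 1) (hH : IsNrm fun w => ∫ v, |⟪g v, w⟫| ∂sph n)
    {δ : ℝ} (hδ : 0 ≤ δ) :
    vr (K + δ • wulff fun w => ∫ v, |⟪g v, w⟫| ∂sph n) ≤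
      vr K + δ * (2 / (n * kappa n * vr K ^ (n - 1))) := by
  sorry

end Vale.Agent.P237
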