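import Vale.Agent.P237.An
import Vale.Agent.P237.CertB
import Vale.Agent.P237.Zon
import Vale.Agent.P237.Pos
import Vale.Agent.P237.Ury

/-! Assembly. -/

namespace Vale.Agent.P237

open MeasureTheory Set Metric Filter Topology
open scoped RealInnerProductSpace Pointwise NNReal ENNReal

variable {n : ℕ} [Fact (4 ≤ n)]

/-- The constant of the inequality. -/
noncomputable def pc (n : ℕ) : ℝ := kappa n * (n * kappa n * m1 n / 2) ^ n

theorem wulff_comp {h : E n → ℝ} (T : E n ≃ₗ[ℝ] E n) {c : ℝ} (hc : 0 < c) {h' : E n → ℝ}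
    (H : ∀ y, h' (T y) = c * h y) :
    wulff h' = {x | c⁻¹ • LinearMap.adjoint (T : E n →ₗ[ℝ] E n) x ∈ wulff h} := by
  ext x
  simp only [wulff, mem_setOf_eq]
  constructor
  · intro hx y
    have := hx (T y)
    rw [H] at this
    rw [real_inner_smul_left, LinearMap.adjoint_inner_left, inv_mul_le_iff₀ hc]
    exact this
  · intro hx y
    obtain ⟨z, rfl⟩ := T.surjective y
    have := hx z
    rw [real_inner_smul_left, LinearMap.adjoint_inner_left, inv_mul_le_iff₀ hc] at this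
    rw [H]
    exact this

omit [Fact (4 ≤ n)] in
theorem det_adjoint' (T : E n →ₗ[ℝ] E n) :
    LinearMap.det (LinearMap.adjoint T) = LinearMap.det T := by
  have b := EuclideanSpace.basisFun (Fin n) ℝ
  rw [← LinearMap.det_toMatrix b.toBasis, ← LinearMap.det_toMatrix b.toBasis T,
    LinearMap.toMatrix_adjoint, Matrix.det_conjTranspose]
  simp

theorem vol_proj_affine {K : Set (E n)} (hK' : IsConvexBody K) (a : E n) (T : E n ≃ₗ[ℝ] E n) :
    (volume (projBody ((fun x => a + T x) '' K))).toReal =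
      |LinearMap.det (T : E n →ₗ[ℝ] E n)| ^ (n - 1) * (volume (projBody K)).toReal := by
  set d := LinearMap.det (T : E n →ₗ[ℝ] E n) with hd
  have hd0 : d ≠ 0 := (LinearEquiv.isUnit_det' T).ne_zero
  have hc : 0 < |d| := abs_pos.2 hd0
  rw [projBody_eq (hK'.affine a T), projBody_eq hK',
    wulff_comp T hc (fun y => hK_affine K a T y)]
  set S : E n →ₗ[ℝ] E n := |d|⁻¹ • LinearMap.adjoint (T : E n →ₗ[ℝ] E n) with hS
  have hSd : LinearMap.det S = |d|⁻¹ ^ n * d := by
    rw [hS, LinearMap.det_smul, det_adjoint', finrank_euclideanSpace_fin]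
  have hS0 : LinearMap.det S ≠ 0 := by
    rw [hSd]
    exact mul_ne_zero (pow_ne_zero _ (inv_ne_zero hc.ne')) hd0
  have e : {x | |d|⁻¹ • LinearMap.adjoint (T : E n →ₗ[ℝ] E n) x ∈ wulff (hK K)} =
      S ⁻¹' wulff (hK K) := rfl
  rw [e, Measure.addHaar_preimage_linearMap _ hS0, ENNReal.toReal_mul,
    ENNReal.toReal_ofReal (abs_nonneg _), hSd]
  congr 1
  obtain ⟨k, rfl⟩ : ∃ k, n = k + 1 := ⟨n - 1, by have := hn4 (n := n); omega⟩
  rw [abs_inv, abs_mul, abs_pow, abs_inv, abs_abs, Nat.add_sub_cancel, inv_pow, pow_succ]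
  field_simp

theorem proj_ball : projBody (closedBall (0 : E n) 1) = closedBall 0 (kappa (n - 1)) := by
  ext x
  simp only [projBody, mem_setOf_eq, mem_closedBall_zero_iff]
  constructor
  · intro h
    by_cases hx : x = 0
    · simpa [hx] using (kappa_pos _).le
    have hx' : ‖x‖ ≠ 0 := norm_ne_zero_iff.2 hx
    have hu : ‖‖x‖⁻¹ • x‖ = 1 := by
      rw [norm_smul, norm_inv, norm_norm, inv_mul_cancel₀ hx']
    have := h _ hu
    rw [shadow_ball hu, real_inner_smul_right, real_inner_self_eq_norm_sq] at this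
    have e : ‖x‖⁻¹ * ‖x‖ ^ 2 = ‖x‖ := by field_simp
    rwa [e] at this
  · intro h u hu
    rw [shadow_ball hu]
    have := real_inner_le_norm x u
    rw [hu, mul_one] at this
    exact this.trans h

theorem ball_body : IsConvexBody (closedBall (0 : E n) 1) :=
  ⟨isCompact_closedBall _ _, convex_closedBall _ _,
    ⟨0, ball_subset_interior_closedBall (mem_ball_self one_pos)⟩⟩

theorem pc_eq : pc n = kappa n * kappa (n - 1) ^ n := by
  unfold pc m1
  have := kappa_pos n
  have := hn4' (n := n)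
  congr 2
  field_simp

theorem ellipsoid_eq {K : Set (E n)} (h : IsEllipsoid K) :
    pc n * vr K ^ ((n - 1) * n) = (volume (projBody K)).toReal := by
  obtain ⟨a, T, rfl⟩ := h
  have hk := kappa_pos n
  have h1 := vr_pow ((fun x => a + T x) '' closedBall (0 : E n) 1)
  rw [vol_affine] at h1
  have h2 : vr ((fun x => a + T x) '' closedBall (0 : E n) 1) ^ n =
      |LinearMap.det (T : E n →ₗ[ℝ] E n)| := by
    apply mul_left_cancel₀ hk.ne'
    rw [h1, mul_comm]
    rfl
  rw [vol_proj_affine ball_body, proj_ball, ← vr_pow, vr_closedBall _ (kappa_pos _).le, pc_eq,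
    mul_comm (n - 1) n, pow_mul, h2]
  ring

/-- The inequality in normalised position. -/
theorem core {K : Set (E n)} (hK' : IsConvexBody K) (hI : Iso (dual (hK K))) :
    pc n * vr K ^ ((n - 1) * n) ≤ (volume (projBody K)).toReal ∧
      (pc n * vr K ^ ((n - 1) * n) = (volume (projBody K)).toReal → IsEllipsoid K) := by
  obtain ⟨b⟩ := exists_HB (n := n)
  have hh := hK_nrm hK'
  have hφ := hh.dual_nrm
  set φ := dual (hK K) with hφd
  have hz := zon_nrm hφ hI
  obtain ⟨m, hm⟩ := hφ.exists_isM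
  obtain ⟨m', hm'⟩ := hz.dual_nrm.exists_isM
  obtain ⟨h1, h2⟩ := an (cert hn4) b hφ hI hm hm'
  have hk := kappa_pos n
  have hn := hn4' (n := n)
  have hn0 : n ≠ 0 := by have := hn4 (n := n); omega
  have hm1 := m1_pos (n := n)
  have hr : 0 < vr K := by
    rcases (vr_nonneg K).lt_or_eq with h | h
    · exact h
    · have := vr_pow K
      rw [← h, zero_pow hn0, mul_zero] at this
      exact absurd this hK'.vol_pos.ne
  have hv : (volume (projBody K)).toReal = kappa n / m ^ n := by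
    rw [projBody_eq hK', hh.wulff_eq, hφ.vol_eq hm]
  have hM : vr (wulff (zon φ)) = m'⁻¹ := by
    have e : (volume (wulff (zon φ))).toReal = kappa n * m'⁻¹ ^ n := by
      rw [hz.wulff_eq, hz.dual_nrm.vol_eq hm', inv_pow, div_eq_mul_inv]
    have h0 : 0 ≤ m'⁻¹ := inv_nonneg.2 hm'.1.le
    exact le_antisymm ((vr_le_iff h0).2 e.le) ((le_vr_iff h0).2 e.ge)
  have hMb : IsConvexBody (wulff (zon φ)) := by
    rw [hz.wulff_eq]
    exact hz.dual_nrm.body
  have hzb : ∀ δ : ℝ, 0 ≤ δ → vr (K + δ • wulff (zon φ)) ≤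
      vr K + δ * (2 / (n * kappa n * vr K ^ (n - 1))) := fun δ hδ =>
    zon_bm hK' (measurable_grad φ) (hφ.adm.ae_diff.mono fun v hv => hh.grad_dual hv) hz hδ
  set s := 2 / (n * kappa n * vr K ^ (n - 1)) with hs
  have hs0 : 0 < s := by positivity
  have h3 : m'⁻¹ ≤ s := by
    have := bm hK'.1 hK'.2.1 (hK'.2.2.mono interior_subset) hMb.1 hMb.2.1
      (hMb.2.2.mono interior_subset)
    have h4 := hzb 1 zero_le_one
    rw [one_smul] at h4
    linarith
  have hm0 := hm.1
  have hm0' := hm'.1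
  have h3' : 1 ≤ s * m' := by rwa [← div_le_iff₀ hm0', one_div]
  have e1 : pc n * vr K ^ ((n - 1) * n) = kappa n * (m1 n / s) ^ n := by
    rw [pc, pow_mul, mul_assoc, ← mul_pow, hs]
    congr 2
    field_simp
  have e2 : kappa n / m ^ n = kappa n * m⁻¹ ^ n := by rw [inv_pow, div_eq_mul_inv]
  have h5 : m1 n * m ≤ s := by nlinarith [mul_pos hm1 hm0]
  have h6 : m1 n / s ≤ m⁻¹ := by
    rw [div_le_iff₀ hs0, inv_mul_eq_div, le_div_iff₀ hm0]
    exact h5
  rw [e1, hv, e2]
  refine ⟨by gcongr, fun h => ?_⟩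
  have h7 : m1 n / s = m⁻¹ :=
    (pow_left_inj₀ (by positivity) (by positivity) hn0).1 (mul_left_cancel₀ hk.ne' h)
  have h8 : m1 n * m = s := by
    field_simp at h7
    linarith
  have h9 : m1 n * m * m' = 1 := le_antisymm h1 (by rw [h8]; exact h3')
  have h10 : wulff (zon φ) = m'⁻¹ • closedBall (0 : E n) 1 := by
    rw [hz.wulff_eq, smul_closedBall' (inv_ne_zero hm0'.ne'), smul_zero]
    ext x
    simp only [mem_setOf_eq, h2 h9, mem_closedBall_zero_iff, norm_inv, Real.norm_eq_abs,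
      abs_of_pos hm0', mul_one]
    rw [← one_div, le_div_iff₀ hm0', mul_comm]
  obtain ⟨a, c, hc, hKc⟩ := ball_of_eq hK' fun δ hδ => by
    have := hzb (δ * m') (by positivity)
    rw [h10, smul_smul, mul_assoc, mul_inv_cancel₀ hm0'.ne', mul_one] at this
    have e : δ * m' * s = δ := by
      rw [mul_assoc, mul_comm m', ← h8, h9, mul_one]
    rwa [e] at this
  refine ⟨a, LinearEquiv.smulOfNeZero ℝ (E n) c hc.ne', ?_⟩
  rw [hKc]
  ext x
  simp only [mem_closedBall, dist_eq_norm, mem_image, sub_zero, LinearEquiv.smulOfNeZero_apply]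
  constructor
  · intro hx
    refine ⟨c⁻¹ • (x - a), ?_, by rw [smul_inv_smul₀ hc.ne']; abel⟩
    rw [norm_smul, norm_inv, Real.norm_eq_abs, abs_of_pos hc, inv_mul_le_iff₀ hc, mul_one]
    exact hx
  · rintro ⟨y, hy, rfl⟩
    rw [add_sub_cancel_left, norm_smul, Real.norm_eq_abs, abs_of_pos hc]
    exact mul_le_of_le_one_right hc.le hy

theorem petty_vr {K : Set (E n)} (hK' : IsConvexBody K) :
    pc n * vr K ^ ((n - 1) * n) ≤ (volume (projBody K)).toReal ∧
      (pc n * vr K ^ ((n - 1) * n) = (volume (projBody K)).toReal → IsEllipsoid K) := by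
  have hh := hK_nrm hK'
  obtain ⟨T, hT, hI⟩ := exists_iso hh.dual_nrm
  have hS0 : LinearMap.det (LinearMap.adjoint (T : E n →ₗ[ℝ] E n)) = 1 := by
    rw [det_adjoint', hT]
  let S : E n ≃ₗ[ℝ] E n := LinearMap.equivOfDetNeZero _ (by rw [hS0]; exact one_ne_zero)
  have hS : (S : E n →ₗ[ℝ] E n) = LinearMap.adjoint (T : E n →ₗ[ℝ] E n) := by
    ext1 x
    rfl
  have hSd : |LinearMap.det (S : E n →ₗ[ℝ] E n)| = 1 := by rw [hS, hS0, abs_one]
  have hK2 := hK'.affine 0 S
  set K2 := (fun x => 0 + S x) '' K with hK2d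
  have hh2 := hK_nrm hK2
  have hy : ∀ y, hK K2 (S y) = hK K y := fun y => by rw [hK2d, hK_affine, hSd, one_mul]
  have hi : ∀ x y, ⟪x, S y⟫ = ⟪T x, y⟫ := fun x y => by
    have : S y = LinearMap.adjoint (T : E n →ₗ[ℝ] E n) y := by rw [← hS]; rfl
    rw [this, LinearMap.adjoint_inner_right]
    rfl
  have hd : dual (hK K2) = fun x => dual (hK K) (T x) := by
    funext x
    unfold dual
    congr 1
    ext t
    simp only [mem_image, mem_setOf_eq]
    constructor
    · rintro ⟨y, h1, rfl⟩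
      obtain ⟨z, rfl⟩ := S.surjective y
      exact ⟨z, by rwa [hy] at h1, (hi x z).symm⟩
    · rintro ⟨y, h1, rfl⟩
      exact ⟨S y, by rwa [hy], hi x y⟩
  have hv : vr K2 = vr K := by
    unfold vr
    rw [hK2d, vol_affine, hSd, one_mul]
  have hp : (volume (projBody K2)).toReal = (volume (projBody K)).toReal := by
    rw [hK2d, vol_proj_affine hK', hSd, one_pow, one_mul]
  obtain ⟨h1, h2⟩ := core hK2 (by rw [hd]; exact hI)
  rw [hv, hp] at h1 h2
  refine ⟨h1, fun h => ?_⟩
  obtain ⟨a, U, hU⟩ := h2 h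
  refine ⟨S.symm a, U.trans S.symm, ?_⟩
  ext x
  have : x ∈ K ↔ S x ∈ K2 := by
    rw [hK2d]
    constructor
    · intro hx
      exact ⟨x, hx, zero_add _⟩
    · rintro ⟨y, hy', e⟩
      simp only [zero_add, EmbeddingLike.apply_eq_iff_eq] at e
      exact e ▸ hy'
  rw [this, hU]
  simp only [mem_image, LinearEquiv.trans_apply]
  refine exists_congr fun y => and_congr_right fun _ => ?_
  rw [← map_add, LinearEquiv.symm_apply_eq]

theorem pc_mul (K : Set (E n)) :
    kappa (n - 1) ^ n * kappa n ^ ((2 : ℤ) - n) * (volume K).toReal ^ (n - 1) =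
      pc n * vr K ^ ((n - 1) * n) := by
  have hk := kappa_pos n
  rw [pc_eq, ← vr_pow K, mul_pow, ← pow_mul, mul_comm n (n - 1), zpow_sub₀ hk.ne', zpow_natCast]
  obtain ⟨k, rfl⟩ : ∃ k, n = k + 1 := ⟨n - 1, by have := hn4 (n := n); omega⟩
  rw [Nat.add_sub_cancel]
  field_simp
  ring

theorem petty {K : Set (E n)} (hK' : IsConvexBody K) :
    (IsConvexBody (projBody K) ∧ (∀ x ∈ projBody K, -x ∈ projBody K) ∧
      ∀ u, ‖u‖ = 1 → IsGreatest ((fun x => ⟪x, u⟫) '' projBody K) (shadow K u)) ∧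
    kappa (n - 1) ^ n * kappa n ^ ((2 : ℤ) - n) * (volume K).toReal ^ (n - 1) ≤
      (volume (projBody K)).toReal ∧
    (kappa (n - 1) ^ n * kappa n ^ ((2 : ℤ) - n) * (volume K).toReal ^ (n - 1) =
      (volume (projBody K)).toReal ↔ IsEllipsoid K) := by
  have hh := hK_nrm hK'
  obtain ⟨h1, h2⟩ := petty_vr hK'
  rw [pc_mul]
  refine ⟨⟨?_, ?_, ?_⟩, h1, h2, ellipsoid_eq⟩
  · rw [projBody_eq hK', hh.wulff_eq]
    exact hh.dual_nrm.body
  · rw [projBody_eq hK', hh.wulff_eq]
    intro x hx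
    rwa [mem_setOf_eq, hh.dual_nrm.neg]
  · intro u hu
    have := hh.isGreatest_wulff u
    have e := hK_eq hK'.1 hK'.2.1 hu zero_le_one
    rw [one_smul, one_mul] at e
    rwa [e, ← projBody_eq hK'] at this

end Vale.Agent.P237
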