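import Vale.Agent.P237.Ext

/-! Polynomial functions.

Plan. Span induction for smoothness. finite: ⟪a,x⟫^j = (∑ i, a i * x i)^j = ∑ over f : Fin j → Fin n
of (∏ a (f l)) * ∏ x (f l) (Finset.prod_univ_sum, or Finset.sum_pow'), so Poly n k lies in the span
of the finitely many monomials x ↦ ∏ l, x (f l), f : Fin j → Fin n, j < k
(Submodule.finiteDimensional_of_le, FiniteDimensional.span_of_finite).
dense: for fixed a and continuous g : ℝ → ℝ, ∫ f u * g ⟪a,u⟫ = 0 by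
exists_polynomial_near_of_continuousOn on [-‖a‖, ‖a‖]; take g = cos, sin. The finite measures
(sph n).withDensity (ofReal (f u)) and (sph n).withDensity (ofReal (- f u)) have the same charFun,
so they agree (Measure.ext_of_charFun), hence ∫ over s of f = 0 for all measurable s
(Integrable.ae_eq_zero_of_forall_setIntegral_eq_zero), or use withDensity_eq_iff. -/

namespace Vale.Agent.P237

open MeasureTheory Set Metric Filter Topology
open scoped RealInnerProductSpace Pointwise NNReal ENNReal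

variable {n : ℕ} [Fact (4 ≤ n)]

omit [Fact (4 ≤ n)] in
theorem Poly.mono {j k : ℕ} (h : j ≤ k) : Poly n j ≤ Poly n k := by
  sorry

omit [Fact (4 ≤ n)] in
theorem Poly.pow_mem (a : E n) {j k : ℕ} (h : j < k) : (fun x => ⟪a, x⟫ ^ j) ∈ Poly n k := by
  sorry

omit [Fact (4 ≤ n)] in
theorem Poly.const_mem (c : ℝ) {k : ℕ} (h : 0 < k) : (fun _ => c) ∈ Poly n k := by
  sorry

omit [Fact (4 ≤ n)] in
theorem Poly.eq_zero {q : E n → ℝ} (h : q ∈ Poly n 0) : q = 0 := by
  sorry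

omit [Fact (4 ≤ n)] in
theorem Poly.one {q : E n → ℝ} (h : q ∈ Poly n 1) : ∃ c : ℝ, q = fun _ => c := by
  sorry

omit [Fact (4 ≤ n)] in
theorem Poly.two {q : E n → ℝ} (h : q ∈ Poly n 2) :
    ∃ (c : ℝ) (b : E n), q = fun x => c + ⟪b, x⟫ := by
  sorry

omit [Fact (4 ≤ n)] in
theorem Poly.contDiff {k : ℕ} {q : E n → ℝ} (h : q ∈ Poly n k) : ContDiff ℝ 1 q := by
  sorry

omit [Fact (4 ≤ n)] in
theorem Poly.continuous {k : ℕ} {q : E n → ℝ} (h : q ∈ Poly n k) : Continuous q :=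
  (Poly.contDiff h).continuous

theorem Poly.memLp {k : ℕ} {q : E n → ℝ} (h : q ∈ Poly n k) (p : ℝ≥0∞) : MemLp q p (sph n) :=
  memLp_of_contOn (Poly.continuous h).continuousOn p

omit [Fact (4 ≤ n)] in
theorem Poly.finite (k : ℕ) : FiniteDimensional ℝ (Poly n k) := by
  sorry

/-- The extension of a polynomial is admissible and has the same tangential gradient. -/
theorem Poly.ext_adm {k : ℕ} {q : E n → ℝ} (h : q ∈ Poly n k) :
    Adm (ext q) ∧ ∀ u, ‖u‖ = 1 → ext q u = q u ∧ D (ext q) u = D q u := by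
  sorry

/-- Induction principle: generators of top degree, lower degree, linearity. -/
theorem Poly.step {k : ℕ} {p : (E n → ℝ) → Prop} (h0 : p 0)
    (h1 : ∀ (a : E n) (j : ℕ), j ≤ k → p fun x => ⟪a, x⟫ ^ j)
    (h2 : ∀ f ∈ Poly n (k + 1), ∀ g ∈ Poly n (k + 1), p f → p g → p (f + g))
    (h3 : ∀ (c : ℝ), ∀ f ∈ Poly n (k + 1), p f → p (c • f)) :
    ∀ q ∈ Poly n (k + 1), p q := by
  sorry

theorem ip_add_right {f g h : E n → ℝ} (hf : MemLp f 2 (sph n)) (hg : MemLp g 2 (sph n))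
    (hh : MemLp h 2 (sph n)) : ip f (g + h) = ip f g + ip f h := by
  sorry

omit [Fact (4 ≤ n)] in
theorem ip_smul_right (c : ℝ) (f g : E n → ℝ) : ip f (c • g) = c * ip f g := by
  sorry

theorem ip_sum_right {ι : Type} (s : Finset ι) {f : E n → ℝ} {g : ι → E n → ℝ} (c : ι → ℝ)
    (hf : MemLp f 2 (sph n)) (hg : ∀ i, MemLp (g i) 2 (sph n)) :
    ip f (∑ i ∈ s, c i • g i) = ∑ i ∈ s, c i * ip f (g i) := by
  sorry

theorem ip_congr {f f' g g' : E n → ℝ} (hf : ∀ u, ‖u‖ = 1 → f u = f' u)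
    (hg : ∀ u, ‖u‖ = 1 → g u = g' u) : ip f g = ip f' g' := by
  sorry

theorem eq_zero_of_ip {r : E n → ℝ} (hr : ContinuousOn r (sphere 0 1)) (h : ip r r = 0) :
    ∀ u, ‖u‖ = 1 → r u = 0 := by
  sorry

theorem dense_poly {f : E n → ℝ} (hf : MemLp f 2 (sph n))
    (h : ∀ (a : E n) (j : ℕ), ∫ u, f u * ⟪a, u⟫ ^ j ∂sph n = 0) : f =ᵐ[sph n] 0 := by
  sorry

end Vale.Agent.P237
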