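import Vale.Agent.P237.Base

/-! Sweeping along a segment gains length times shadow.

Plan. Let L = ℝ ∙ u. The map Φ : Lᗮ × ℝ → E n, (z, s) ↦ z + s • u preserves volume: compose
Submodule.orthogonalDecomposition (LinearIsometryEquiv.measurePreserving),
WithLp.volume_preserving_ofLp, LinearIsometryEquiv.toSpanUnitSingleton and Prod.swap. For a compact
convex set A, volume A = ∫⁻ z, volume {s | z + s • u ∈ A} (Measure.prod_apply). The fibre
I z = {s | z + s • u ∈ K} is compact and convex, so empty or a closed interval (eq_Icc_of_connected_compact);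
it is nonempty iff z lies in the projection of K; the fibre of K + segment 0 (t • u) is
I z + [0, t], of length volume (I z) + t when nonempty. lintegral_add_left, lintegral_indicator. -/

namespace Vale.Agent.P237

open MeasureTheory Set Metric Filter Topology
open scoped RealInnerProductSpace Pointwise NNReal ENNReal

variable {n : ℕ} [Fact (4 ≤ n)]

theorem vol_sweep {K : Set (E n)} (hc : IsCompact K) (hv : Convex ℝ K) {u : E n} (hu : ‖u‖ = 1)
    {t : ℝ} (ht : 0 ≤ t) :
    volume (K + segment ℝ 0 (t • u)) =
      volume K + ENNReal.ofReal t * volume ((ℝ ∙ u)ᗮ.orthogonalProjectionOnto '' K) := by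
  sorry

theorem hK_eq {K : Set (E n)} (hc : IsCompact K) (hv : Convex ℝ K) {u : E n} (hu : ‖u‖ = 1)
    {t : ℝ} (ht : 0 ≤ t) : hK K (t • u) = t * shadow K u := by
  sorry

theorem shadow_mono {K K' : Set (E n)} (hc : IsCompact K') (h : K ⊆ K') (u : E n) :
    shadow K u ≤ shadow K' u := by
  sorry

theorem shadow_pos {K : Set (E n)} (hK : IsConvexBody K) (u : E n) : 0 < shadow K u := by
  sorry

theorem shadow_ball {u : E n} (hu : ‖u‖ = 1) :
    shadow (closedBall (0 : E n) 1) u = kappa (n - 1) := by
  sorry

end Vale.Agent.P237
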