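import Vale.Agent.P237.Base

/-! The sphere measure `sph n`: invariance, polar coordinates, null sets.

Plan. ae_norm: ae_map_iff / ae_smul. sph_iso: both measures are finite; for measurable s use
Measure.toSphere_apply' and Ioo 0 1 • (image of preimage) = T-preimage of the cone, then
T.measurePreserving (see Vale/Agent/P309/Reflect.lean for a model), or deduce it from
polar_lintegral: sph s = kappa^-1 * volume {x in ball 0 1, ‖x‖⁻¹ • x ∈ s}.
polar_lintegral: Measure.measurePreserving_homeomorphUnitSphereProd (read the proof of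
integral_fun_norm_addHaar in Mathlib/MeasureTheory/Constructions/HaarToSphere.lean), lintegral_prod,
volumeIoiPow = withDensity of comap; total mass of toSphere = n * volume (ball 0 1).
ae_of_cone: take measurable null supersets (exists_measurable_superset_of_null) and apply
polar_lintegral to indicators. integral_ball_hom: split F into positive and negative parts (both
homogeneous) and use polar_lintegral with the integral of r^(n-1+d) over (0,1).
Radial volume bounds: polar_lintegral for the indicator of A; the inner integral is compared with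
the integral of r^(n-1) over (0, ρ u), which is ρ u ^ n / n.
eq_of_ae_eq: toSphere is an open-positive measure (toSphere.instIsOpenPosMeasure), use
Continuous.ae_eq_iff_eq on the subtype. ae_inner_ne: ae_of_cone and Measure.addHaar_submodule. -/

namespace Vale.Agent.P237

open MeasureTheory Set Metric Filter Topology
open scoped RealInnerProductSpace Pointwise NNReal ENNReal

variable {n : ℕ} [Fact (4 ≤ n)]

theorem ae_norm : ∀ᵐ u ∂sph n, ‖u‖ = 1 := by
  sorry

theorem sph_iso (T : E n ≃ₗᵢ[ℝ] E n) : MeasurePreserving T (sph n) (sph n) := by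
  sorry

theorem integral_iso (T : E n ≃ₗᵢ[ℝ] E n) (f : E n → ℝ) :
    ∫ u, f (T u) ∂sph n = ∫ u, f u ∂sph n := by
  sorry

theorem integral_comp_neg (f : E n → ℝ) : ∫ u, f (-u) ∂sph n = ∫ u, f u ∂sph n := by
  sorry

theorem integral_odd {f : E n → ℝ} (h : ∀ u, ‖u‖ = 1 → f (-u) = -f u) :
    ∫ u, f u ∂sph n = 0 := by
  sorry

theorem integral_congr_sph {f g : E n → ℝ} (h : ∀ u, ‖u‖ = 1 → f u = g u) :
    ∫ u, f u ∂sph n = ∫ u, g u ∂sph n := by
  sorry

theorem memLp_of_bdd {F : Type} [NormedAddCommGroup F] {f : E n → F}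
    (hm : AEStronglyMeasurable f (sph n)) {C : ℝ} (h : ∀ u, ‖u‖ = 1 → ‖f u‖ ≤ C) (p : ℝ≥0∞) :
    MemLp f p (sph n) := by
  sorry

theorem integrable_of_bdd {F : Type} [NormedAddCommGroup F] {f : E n → F}
    (hm : AEStronglyMeasurable f (sph n)) {C : ℝ} (h : ∀ u, ‖u‖ = 1 → ‖f u‖ ≤ C) :
    Integrable f (sph n) := by
  sorry

theorem memLp_of_contOn {f : E n → ℝ} (h : ContinuousOn f (sphere 0 1)) (p : ℝ≥0∞) :
    MemLp f p (sph n) := by
  sorry

theorem integrable_of_contOn {f : E n → ℝ} (h : ContinuousOn f (sphere 0 1)) :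
    Integrable f (sph n) := by
  sorry

theorem integrable_of_cont {f : E n → ℝ} (h : Continuous f) : Integrable f (sph n) :=
  integrable_of_contOn h.continuousOn

theorem polar_lintegral {f : E n → ℝ≥0∞} (hf : Measurable f) :
    ∫⁻ x, f x = ENNReal.ofReal (n * kappa n) *
      ∫⁻ u, (∫⁻ r in Ioi (0 : ℝ), ENNReal.ofReal (r ^ (n - 1)) * f (r • u)) ∂sph n := by
  sorry

theorem ae_of_cone {p : E n → Prop} (hp : ∀ r : ℝ, 0 < r → ∀ x, p (r • x) ↔ p x) :
    (∀ᵐ x ∂(volume : Measure (E n)), p x) ↔ ∀ᵐ u ∂sph n, p u := by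
  sorry

theorem integral_ball_hom {d : ℕ} {F : E n → ℝ} (hF : Hom d F) (hm : Measurable F) {C : ℝ}
    (hb : ∀ u, ‖u‖ = 1 → |F u| ≤ C) :
    ∫ x in ball (0 : E n) 1, F x = kappa n * n / (n + d) * ∫ u, F u ∂sph n := by
  sorry

theorem vol_le_of_radial {A : Set (E n)} (hA : MeasurableSet A) {ρ : E n → ℝ}
    (hρ : Measurable ρ) {C : ℝ} (hb : ∀ u, ‖u‖ = 1 → 0 ≤ ρ u ∧ ρ u ≤ C)
    (h : ∀ᵐ u ∂sph n, ∀ r : ℝ, 0 < r → r • u ∈ A → r ≤ ρ u) :
    (volume A).toReal ≤ kappa n * ∫ u, ρ u ^ n ∂sph n := by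
  sorry

theorem le_vol_of_radial {A : Set (E n)} (hA : MeasurableSet A) (hfin : volume A ≠ ∞)
    {ρ : E n → ℝ} (hρ : Measurable ρ) {C : ℝ} (hb : ∀ u, ‖u‖ = 1 → 0 ≤ ρ u ∧ ρ u ≤ C)
    (h : ∀ᵐ u ∂sph n, ∀ r : ℝ, 0 < r → r < ρ u → r • u ∈ A) :
    kappa n * ∫ u, ρ u ^ n ∂sph n ≤ (volume A).toReal := by
  sorry

theorem eq_of_ae_eq {f g : E n → ℝ} (hf : ContinuousOn f (sphere 0 1))
    (hg : ContinuousOn g (sphere 0 1)) (h : f =ᵐ[sph n] g) : ∀ u, ‖u‖ = 1 → f u = g u := by
  sorry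

theorem ae_inner_ne {w : E n} (hw : w ≠ 0) : ∀ᵐ u ∂sph n, ⟪w, u⟫ ≠ 0 := by
  sorry

end Vale.Agent.P237
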