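import Vale.Agent.P237.Cvx
import Vale.Agent.P237.Spec

/-! The one norm inequality from the certificate.

Plan. mean_ge: with ρ x = x - 1 + (x⁻¹^n - 1)/n ≥ 0 for x > 0, > 0 for x ≠ 1 (Bernoulli:
x⁻¹^n ≥ 1 + n (x⁻¹ - 1) and x + x⁻¹ ≥ 2), ∫ ρ (φ/m) = mean φ / m - 1; eq_of_ae_eq for equality.
xp: first m = 1. Take the data of Cert n; Gh = ext (G ∘ φ), Γh = ext (Γ ∘ φ) (chain, twice),
H x = φ x - 1 - G (φ x). V_split, poincare4 for Gh, and a.e.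
‖D Gh‖^2 = g(φ)^2 ‖D φ‖^2 ≤ ⟪D Γh, D φ⟫ + w(φ) (L2 n - φ^2): if φ u ∉ T or not, chain gives
D Γh = u(φ) • D φ a.e.; ‖D φ u‖^2 = ‖∇φ u‖^2 - φ u^2 ≤ L2 n - φ u^2 (inner_D_D, Euler, lip_of_le
with L = sqrt (L2 n), norm_grad_le). cvx bounds dir Γh φ. Integrate the pointwise inequality of the
certificate at x = φ u. General m: apply to m⁻¹ * φ (IsNrm.const_mul, V_const_mul).
V_le_lip: poincare4 for φ itself and mean φ ^ 2 ≤ ip φ φ. -/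

namespace Vale.Agent.P237

open MeasureTheory Set Metric Filter Topology
open scoped RealInnerProductSpace Pointwise NNReal ENNReal

variable {n : ℕ} [Fact (4 ≤ n)]

theorem mean_ge {φ : E n → ℝ} (hφ : IsNrm φ) {m : ℝ} (hm : IsM φ m) :
    m ≤ mean φ ∧ (mean φ = m → ∀ x, φ x = m * ‖x‖) := by
  sorry

theorem xp (hc : Cert n) (b : HB n) {φ : E n → ℝ} (hφ : IsNrm φ) {m : ℝ} (hm : IsM φ m)
    (hL : ∀ u, ‖u‖ = 1 → φ u ^ 2 ≤ L2 n * m ^ 2) : beta n * V b φ ≤ 2 * m * (mean φ - m) := by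
  sorry

theorem V_le_lip (b : HB n) {φ : E n → ℝ} (hφ : IsNrm φ) {Λ : ℝ}
    (hL : ∀ u, ‖u‖ = 1 → φ u ^ 2 ≤ Λ) : 4 * (n + 2) * V b φ ≤ Λ - mean φ ^ 2 := by
  sorry

end Vale.Agent.P237
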